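import Mathlib

/-! The Simons identity in a ring with tangential derivations. -/

open Finset

namespace Vale.Agent.P224

variable {ι R : Type} [Fintype ι] [DecidableEq ι] [CommRing R]

omit [DecidableEq ι] in
theorem sq_split {x ν p q : ι → R} {M : ι → ι → R} (hM : ∀ a b, M a b = M b a)
    (xx : ∑ a, x a * x a = 1) (νν : ∑ a, ν a * ν a = 1) (xν : ∑ a, x a * ν a = 0)
    (xp : ∑ a, x a * p a = 0) (νp : ∑ a, ν a * p a = 0) (νq : ∑ a, ν a * q a = 0)
    (xM : ∀ b, ∑ a, x a * M a b = -p b) (νM : ∀ b, ∑ a, ν a * M a b = q b) :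
    ∑ a, ∑ b, (M a b + (x a * p b - ν a * q b) + (x b * p a - ν b * q a)) ^ 2 =
      ∑ a, ∑ b, M a b * M a b - 2 * ∑ b, p b * p b - 2 * ∑ b, q b * q b := by
  have h1 : ∑ a, ∑ b, M a b * (x a * p b - ν a * q b) = -∑ b, p b * p b - ∑ b, q b * q b := by
    rw [sum_comm, ← sum_neg_distrib, ← sum_sub_distrib]
    refine sum_congr rfl fun b _ => ?_
    rw [neg_mul_eq_neg_mul, ← xM b, ← congrArg (· * q b) (νM b), sum_mul, sum_mul,
      ← sum_sub_distrib]
    exact sum_congr rfl fun a _ => by ring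
  have h2 : ∑ a, ∑ b, (x a * p b - ν a * q b) * (x a * p b - ν a * q b) =
      ∑ b, p b * p b + ∑ b, q b * q b := by
    have : ∑ a, ∑ b, (x a * p b - ν a * q b) * (x a * p b - ν a * q b) =
        (∑ a, x a * x a) * (∑ b, p b * p b) - 2 * ((∑ a, x a * ν a) * ∑ b, p b * q b) +
          (∑ a, ν a * ν a) * ∑ b, q b * q b := by
      simp only [sum_mul_sum]
      simp only [mul_sum, ← sum_sub_distrib, ← sum_add_distrib]
      exact sum_congr rfl fun a _ => sum_congr rfl fun b _ => by ring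
    rw [this, xx, νν, xν]
    ring
  have h3 : ∑ a, ∑ b, (x a * p b - ν a * q b) * (x b * p a - ν b * q a) = 0 := by
    have : ∑ a, ∑ b, (x a * p b - ν a * q b) * (x b * p a - ν b * q a) =
        (∑ a, x a * p a) * (∑ b, x b * p b) - (∑ a, x a * q a) * (∑ b, ν b * p b) -
          (∑ a, ν a * p a) * (∑ b, x b * q b) + (∑ a, ν a * q a) * ∑ b, ν b * q b := by
      simp only [sum_mul_sum, ← sum_sub_distrib, ← sum_add_distrib]
      exact sum_congr rfl fun a _ => sum_congr rfl fun b _ => by ring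
    rw [this, xp, νp, νq]
    ring
  have h4 : ∑ a, ∑ b, M a b * (x b * p a - ν b * q a) = -∑ b, p b * p b - ∑ b, q b * q b := by
    rw [← h1, sum_comm]
    exact sum_congr rfl fun a _ => sum_congr rfl fun b _ => by rw [hM]
  have h5 : ∑ a, ∑ b, (x b * p a - ν b * q a) * (x b * p a - ν b * q a) =
      ∑ b, p b * p b + ∑ b, q b * q b := by rw [← h2, sum_comm]
  have h6 : ∑ a, ∑ b, (M a b + (x a * p b - ν a * q b) + (x b * p a - ν b * q a)) ^ 2 =
      ∑ a, ∑ b, M a b * M a b + ∑ a, ∑ b, (x a * p b - ν a * q b) * (x a * p b - ν a * q b) +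
      ∑ a, ∑ b, (x b * p a - ν b * q a) * (x b * p a - ν b * q a) +
      2 * ∑ a, ∑ b, M a b * (x a * p b - ν a * q b) +
      2 * ∑ a, ∑ b, M a b * (x b * p a - ν b * q a) +
      2 * ∑ a, ∑ b, (x a * p b - ν a * q b) * (x b * p a - ν b * q a) := by
    simp only [mul_sum, ← sum_add_distrib]
    exact sum_congr rfl fun a _ => sum_congr rfl fun b _ => by ring
  rw [h6, h1, h2, h3, h4, h5]
  ring

/-- tangential derivations along a minimal hypersurface of the sphere -/
structure Tang (δ : ι → R →+ R) (x ν : ι → R) (A : ι → ι → R) (c : R) : Prop where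
  mul : ∀ a f g, δ a (f * g) = f * δ a g + g * δ a f
  dx : ∀ a b, δ a (x b) = (if a = b then 1 else 0) - x a * x b - ν a * ν b
  dν : ∀ a b, δ a (ν b) = -A a b
  sym : ∀ a b, A a b = A b a
  xx : ∑ a, x a * x a = 1
  νν : ∑ a, ν a * ν a = 1
  xν : ∑ a, x a * ν a = 0
  br0 : ∀ k : ι → R, (∀ b, ∑ e, k e * δ e (x b) = 0) → ∀ φ, ∑ e, k e * δ e φ = 0
  br : ∀ (i a : ι) (k : ι → R), (∀ b, δ i (δ a (x b)) - δ a (δ i (x b)) = ∑ e, k e * δ e (x b)) →
    ∀ φ, δ i (δ a φ) - δ a (δ i φ) = ∑ e, k e * δ e φ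
  tr : ∑ a, A a a = 0
  sq : ∑ a, ∑ b, A a b * A a b = c
  dc : ∀ a, δ a c = 0

variable {δ : ι → R →+ R} {x ν : ι → R} {A : ι → ι → R} {c : R}

theorem Tang.proj (h : Tang δ x ν A c) (k : ι → R) (b : ι) :
    ∑ e, k e * δ e (x b) = k b - (∑ e, x e * k e) * x b - (∑ e, ν e * k e) * ν b := by
  have : k b = ∑ e, k e * if e = b then 1 else 0 := by simp
  rw [this, sum_mul, sum_mul, ← sum_sub_distrib, ← sum_sub_distrib]
  exact sum_congr rfl fun e _ => by rw [h.dx]; ring

theorem Tang.xδ (h : Tang δ x ν A c) : ∀ φ, ∑ e, x e * δ e φ = 0 :=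
  h.br0 x fun b => by
    rw [h.proj, h.xx, sum_congr rfl fun e _ => mul_comm (ν e) (x e), h.xν]
    ring

theorem Tang.νδ (h : Tang δ x ν A c) : ∀ φ, ∑ e, ν e * δ e φ = 0 :=
  h.br0 ν fun b => by
    rw [h.proj, h.νν, h.xν]
    ring

theorem Tang.xA (h : Tang δ x ν A c) (b : ι) : ∑ e, x e * A e b = 0 := by
  simpa only [h.dν, mul_neg, sum_neg_distrib, neg_eq_zero] using h.xδ (ν b)

theorem Tang.νA (h : Tang δ x ν A c) (b : ι) : ∑ e, ν e * A e b = 0 := by
  simpa only [h.dν, mul_neg, sum_neg_distrib, neg_eq_zero] using h.νδ (ν b)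

theorem Tang.dxs (h : Tang δ x ν A c) (a b : ι) : δ a (x b) = δ b (x a) := by
  rw [h.dx, h.dx, mul_comm (x a), mul_comm (ν a)]
  simp only [eq_comm]

theorem Tang.one (h : Tang δ x ν A c) (a : ι) : δ a 1 = 0 := by
  simpa using h.mul a 1 1

theorem Tang.projA (h : Tang δ x ν A c) (a b : ι) : ∑ e, A e a * δ e (x b) = A b a := by
  rw [h.proj, h.xA, h.νA]
  ring

theorem Tang.comm (h : Tang δ x ν A c) (i a : ι) (φ : R) : δ i (δ a φ) - δ a (δ i φ) =
    x i * δ a φ - x a * δ i φ + (ν a * ∑ e, A e i * δ e φ - ν i * ∑ e, A e a * δ e φ) := by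
  have h1 : ∀ φ, ∑ e, (x i * (if e = a then 1 else 0) - x a * (if e = i then 1 else 0) +
      (ν a * A e i - ν i * A e a)) * δ e φ =
      x i * δ a φ - x a * δ i φ + (ν a * ∑ e, A e i * δ e φ - ν i * ∑ e, A e a * δ e φ) := by
    intro φ
    simp only [add_mul, sub_mul, sum_add_distrib, sum_sub_distrib, mul_sum, mul_assoc]
    simp
  rw [← h1]
  refine h.br i a _ (fun b => ?_) φ
  have h2 : ∀ i a b : ι, δ i (if a = b then (1 : R) else 0) = 0 := fun i a b => by
    split_ifs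
    exacts [h.one i, map_zero _]
  rw [h1, h.projA, h.projA, h.dx a b, h.dx i b]
  simp only [map_sub, h.mul, h2, h.dν]
  rw [h.dxs i a, h.dx a b, h.dx i b, h.sym b i, h.sym b a, h.sym i a]
  ring

theorem Tang.simons (h : Tang δ x ν A c) : ∃ T : ι → ι → ι → R,
    2 * ∑ i, ∑ a, ∑ b, T i a b ^ 2 = 2 * (c * (c + 2 - Fintype.card ι)) := by
  obtain ⟨B, hB⟩ : ∃ B : ι → ι → R, ∀ a b, ∑ e, A e a * A e b = B a b := ⟨_, fun _ _ => rfl⟩
  have Bs : ∀ a b, B a b = B b a := fun a b => by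
    rw [← hB, ← hB]
    exact sum_congr rfl fun e _ => mul_comm _ _
  have kB : ∀ k : ι → R, (∀ b, ∑ e, k e * A e b = 0) → ∀ b, ∑ a, k a * B b a = 0 := by
    intro k hk b
    simp only [← hB, mul_sum]
    rw [sum_comm]
    refine sum_eq_zero fun e _ => ?_
    rw [← mul_zero (A e b), ← hk e, mul_sum]
    exact sum_congr rfl fun a _ => by rw [h.sym e a]; ring
  have trB : ∑ a, B a a = c := by simp only [← hB]; rw [sum_comm, h.sq]
  have xT : ∀ i b, ∑ a, x a * δ i (A a b) = -A i b := fun i b => by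
    have h1 := congrArg (δ i) (h.xA b)
    simp only [map_sum, map_zero, h.mul, sum_add_distrib, h.dxs i, h.projA] at h1
    exact eq_neg_of_add_eq_zero_left h1
  have νT : ∀ i b, ∑ a, ν a * δ i (A a b) = B i b := fun i b => by
    have h1 := congrArg (δ i) (h.νA b)
    simp only [map_sum, map_zero, h.mul, sum_add_distrib, h.dν, mul_neg, sum_neg_distrib,
      h.sym i, hB] at h1
    rw [Bs]
    exact eq_of_sub_eq_zero ((sub_eq_add_neg _ _).trans h1)
  have cod : ∀ i a b, δ i (A a b) =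
      δ a (A i b) + (x i * A a b - x a * A i b + (ν a * B i b - ν i * B a b)) := fun i a b => by
    have h1 := h.comm i a (ν b)
    simp only [h.dν, map_neg, mul_neg, sum_neg_distrib, hB] at h1
    linear_combination -h1
  have dv : ∀ b, ∑ i, δ i (A i b) = ν b * c := fun b => by
    have h1 : ∀ i, δ i (A i b) = δ b (A i i) +
        (x i * A i b - x b * A i i + (ν b * B i i - ν i * B b i)) := fun i => by
      rw [h.sym i b, cod i b i, h.sym b i]
    simp only [h1, sum_add_distrib, sum_sub_distrib, ← mul_sum, ← map_sum, h.tr, h.xA, trB,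
      kB ν h.νA, map_zero]
    ring
  have trP : ∑ i, δ i (x i) = Fintype.card ι - 2 := by
    simp only [h.dx, if_true, sum_sub_distrib, h.xx, h.νν, sum_const, card_univ, nsmul_eq_mul]
    ring
  have lap : ∀ a b, ∑ i, δ i (δ i (A a b)) = (Fintype.card ι - 4 - c) * A a b -
      2 * ∑ e, A e a * B e b + x a * (-2 * (ν b * c)) +
      ν a * (∑ i, ∑ e, A e i * δ e (A i b) + ∑ i, δ i (B i b)) := by
    intro a b
    have h1 : ∀ i, δ i (δ a (A i b)) = δ a (δ i (A i b)) + (x i * δ a (A i b) - x a * δ i (A i b) +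
        (ν a * ∑ e, A e i * δ e (A i b) - ∑ e, A e a * (ν i * δ e (A i b)))) := fun i => by
      rw [← sub_eq_iff_eq_add', h.comm, mul_sum _ _ (ν i)]
      simp only [mul_left_comm (ν i)]
    have h2 : ∑ i, ∑ e, A e a * (ν i * δ e (A i b)) = ∑ e, A e a * B e b := by
      rw [sum_comm]
      simp only [← mul_sum, νT]
    have h3 : ∑ i, A i b * δ i (x a) = A a b := h.projA b a
    have h4 : ∑ i, B i b * A i a = ∑ e, A e a * B e b := sum_congr rfl fun e _ => mul_comm _ _
    rw [sum_congr rfl fun i _ => congrArg (δ i) (cod i a b)]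
    simp only [map_add, map_sub, h.mul, h1, sum_add_distrib, sum_sub_distrib, ← mul_sum, ← map_sum,
      dv, xT, h2, h.xδ, h.νδ, trP, h3, h.dν, h.dc, mul_neg, sum_neg_distrib, h4, h.tr]
    ring
  have h1 : ∀ i, 2 * ∑ a, ∑ b, (δ i (A a b) * δ i (A a b) + A a b * δ i (δ i (A a b))) = 0 := by
    intro i
    have h2 := congrArg (fun t => δ i (δ i t)) h.sq
    simp only [h.dc, map_zero, map_sum, h.mul, map_add] at h2
    rw [← h2, mul_sum]
    refine sum_congr rfl fun a _ => ?_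
    rw [mul_sum]
    exact sum_congr rfl fun b _ => by ring
  have h2 : ∑ i, ∑ a, ∑ b, A a b * δ i (δ i (A a b)) =
      (Fintype.card ι - 4 - c) * c - 2 * ∑ e, ∑ b, B e b * B e b := by
    have h3 : ∀ k u : ι → R, (∀ b, ∑ e, k e * A e b = 0) → ∑ a, ∑ b, A a b * (k a * u b) = 0 := by
      intro k u hk
      rw [sum_comm]
      refine sum_eq_zero fun b _ => ?_
      rw [← zero_mul (u b), ← hk b, sum_mul]
      exact sum_congr rfl fun a _ => by ring
    have h4 : ∑ a, ∑ b, A a b * ∑ e, A e a * B e b = ∑ e, ∑ b, B e b * B e b := by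
      simp only [mul_sum]
      rw [sum_comm, sum_congr rfl fun b _ => sum_comm, sum_comm]
      refine sum_congr rfl fun e _ => sum_congr rfl fun b _ => ?_
      rw [← congrArg (· * B e b) (hB e b), sum_mul]
      exact sum_congr rfl fun a _ => by rw [h.sym e a]; ring
    rw [sum_comm, sum_congr rfl fun a _ => sum_comm]
    have h5 : ∀ (K : R) (W : ι → ι → R) (u v : ι → R),
        ∑ a, ∑ b, A a b * (K * A a b - 2 * W a b + x a * u b + ν a * v b) =
        K * ∑ a, ∑ b, A a b * A a b - 2 * ∑ a, ∑ b, A a b * W a b +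
          ∑ a, ∑ b, A a b * (x a * u b) + ∑ a, ∑ b, A a b * (ν a * v b) := fun K W u v => by
      simp only [mul_sum, ← sum_sub_distrib, ← sum_add_distrib]
      exact sum_congr rfl fun a _ => sum_congr rfl fun b _ => by ring
    simp only [← mul_sum, lap]
    rw [h5, h.sq, h4, h3 x _ h.xA, h3 ν _ h.νA, add_zero, add_zero]
  refine ⟨fun i a b => δ i (A a b) + (x a * A i b - ν a * B i b) + (x b * A i a - ν b * B i a), ?_⟩
  have h3 : ∀ k : ι → R, (∀ b, ∑ e, k e * A e b = 0) → ∀ i, ∑ e, k e * A i e = 0 :=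
    fun k hk i => by simp only [h.sym i, hk]
  simp only [fun i => sq_split (fun a b => congrArg (δ i) (h.sym a b)) h.xx h.νν h.xν
    (h3 x h.xA i) (h3 ν h.νA i) (kB ν h.νA i) (xT i) (νT i), sum_sub_distrib, ← mul_sum, h.sq]
  have h4 := sum_eq_zero (s := univ) fun i _ => h1 i
  simp only [← mul_sum, sum_add_distrib, h2] at h4
  linear_combination h4

end Vale.Agent.P224
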