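import Mathlib

/-! A weighted area inequality. -/

open MeasureTheory Set
open scoped ENNReal

namespace Vale.Agent.P224

theorem cov {X : Type} [NormedAddCommGroup X] [NormedSpace ℝ X] [FiniteDimensional ℝ X]
    [MeasurableSpace X] [BorelSpace X] (μ : Measure X) [μ.IsAddHaarMeasure] {s : Set X}
    (hs : MeasurableSet s) {Ψ : X → X} {Ψ' : X → X →L[ℝ] X}
    (hΨ : ∀ x ∈ s, HasFDerivWithinAt Ψ (Ψ' x) s x) {w : X → ℝ≥0∞} (hw : Measurable w) :
    ∫⁻ y in Ψ '' s, w y ∂μ ≤ ∫⁻ x in s, ENNReal.ofReal |(Ψ' x).det| * w (Ψ x) ∂μ := by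
  classical
  refine hw.ennreal_induction (motive := fun w => ∫⁻ y in Ψ '' s, w y ∂μ ≤
    ∫⁻ x in s, ENNReal.ofReal |(Ψ' x).det| * w (Ψ x) ∂μ) (fun c A hA => ?_)
    (fun f g _ hf _ h1 h2 => ?_) fun f hf hm h => ?_
  · have h1 : Measurable (s.piecewise Ψ fun _ => 0) := ContinuousOn.measurable_piecewise
      (fun x hx => (hΨ x hx).continuousWithinAt) continuousOn_const hs
    have h2 : Ψ ⁻¹' A ∩ s = (s.piecewise Ψ fun _ => 0) ⁻¹' A ∩ s := by
      ext x
      refine and_congr_left fun hx => ?_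
      rw [mem_preimage, mem_preimage, piecewise_eq_of_mem _ _ _ hx]
    have h3 : MeasurableSet (Ψ ⁻¹' A ∩ s) := h2 ▸ (h1 hA).inter hs
    rw [lintegral_indicator_const hA, Measure.restrict_apply hA, ← image_preimage_inter]
    refine (mul_le_mul_right (addHaar_image_le_lintegral_abs_det_fderiv μ h3
      fun x hx => (hΨ x hx.2).mono inter_subset_right) c).trans
      ((lintegral_const_mul_le _ _).trans ?_)
    refine le_trans (setLIntegral_mono' h3 fun x hx => ?_) (lintegral_mono_set inter_subset_right)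
    rw [indicator_of_mem (show Ψ x ∈ A from hx.1), mul_comm]
  · simp only [Pi.add_apply, mul_add]
    rw [lintegral_add_left hf]
    exact (add_le_add h1 h2).trans (le_lintegral_add _ _)
  · rw [lintegral_iSup hf hm]
    exact iSup_le fun n => (h n).trans
      (lintegral_mono fun x => mul_le_mul_right (le_iSup (fun n => f n (Ψ x)) n) _)

end Vale.Agent.P224
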