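import Vale.Agent.P224.Lin

/-! Calculus for a parametrized hypersurface of the sphere; the unit normal field. -/

open Finset Filter Topology
open scoped ContDiff

noncomputable section

namespace Vale.Agent.P224

variable {m : ℕ} {f ν : (Fin m → ℝ) → E (m + 2)} {U : Set (Fin m → ℝ)} {u : Fin m → ℝ}

/-- a smooth immersion of an open set into the unit sphere -/
structure Good (f : (Fin m → ℝ) → E (m + 2)) (U : Set (Fin m → ℝ)) : Prop where
  op : IsOpen U
  sm : ∀ u ∈ U, ContDiffAt ℝ ∞ f u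
  unit : ∀ u ∈ U, ‖f u‖ = 1
  inj : ∀ u ∈ U, Function.Injective (fderiv ℝ f u)

theorem inner_const {a b : (Fin m → ℝ) → E (m + 2)} (ha : DifferentiableAt ℝ a u)
    (hb : DifferentiableAt ℝ b u) {c : ℝ} (h : ∀ᶠ z in 𝓝 u, inner ℝ (a z) (b z) = c)
    (v : Fin m → ℝ) : inner ℝ (a u) (fderiv ℝ b u v) + inner ℝ (fderiv ℝ a u v) (b u) = 0 := by
  rw [← fderiv_inner_apply ℝ ha hb, EventuallyEq.fderiv_eq (f := fun _ => c) h]
  simp

theorem sm_fderiv (hf : ContDiffAt ℝ ∞ f u) : ContDiffAt ℝ ∞ (fderiv ℝ f) u :=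
  hf.fderiv_right (by simp)

theorem sm_d1 (hf : ContDiffAt ℝ ∞ f u) (v : Fin m → ℝ) :
    ContDiffAt ℝ ∞ (fun z => d1 f z v) u :=
  (sm_fderiv hf).clm_apply contDiffAt_const

theorem d2_eq (hf : ContDiffAt ℝ ∞ f u) (v w : Fin m → ℝ) :
    d2 f u v w = fderiv ℝ (fderiv ℝ f) u w v := by
  change fderiv ℝ (fun z => fderiv ℝ f z v) u w = _
  rw [fderiv_clm_apply ((sm_fderiv hf).differentiableAt (by simp)) (differentiableAt_const v)]
  simp

theorem d2_symm (hf : ContDiffAt ℝ ∞ f u) (v w : Fin m → ℝ) : d2 f u v w = d2 f u w v := by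
  rw [d2_eq hf, d2_eq hf]
  exact ((hf.of_le (m := 2) (WithTop.coe_le_coe.2 le_top)).isSymmSndFDerivAt (by simp)).eq w v

theorem unit_perp (hν : DifferentiableAt ℝ ν u) (h : ∀ᶠ z in 𝓝 u, ‖ν z‖ = 1) (v : Fin m → ℝ) :
    inner ℝ (ν u) (fderiv ℝ ν u v) = 0 := by
  have h1 := inner_const hν hν (c := 1) (h.mono fun z hz => by simp [hz]) v
  rw [real_inner_comm (ν u)] at h1
  linarith

theorem Good.diff (hf : Good f U) (hu : u ∈ U) : DifferentiableAt ℝ f u :=
  (hf.sm u hu).differentiableAt (by simp)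

theorem Good.ev (hf : Good f U) (hu : u ∈ U) {p : (Fin m → ℝ) → Prop} (h : ∀ z ∈ U, p z) :
    ∀ᶠ z in 𝓝 u, p z := mem_of_superset (hf.op.mem_nhds hu) h

theorem Good.perp (hf : Good f U) (hu : u ∈ U) (v : Fin m → ℝ) : inner ℝ (f u) (d1 f u v) = 0 :=
  unit_perp (hf.diff hu) (hf.ev hu hf.unit) v

theorem Good.second (hf : Good f U) (hu : u ∈ U) (v w : Fin m → ℝ) :
    inner ℝ (f u) (d2 f u v w) = -inner ℝ (d1 f u w) (d1 f u v) :=
  eq_neg_of_add_eq_zero_left (inner_const (hf.diff hu)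
    ((sm_d1 (hf.sm u hu) v).differentiableAt (by simp)) (hf.ev hu fun _ hz => hf.perp hz v) w)

/-- a smooth unit normal field -/
structure Nor (f ν : (Fin m → ℝ) → E (m + 2)) (U : Set (Fin m → ℝ)) : Prop where
  sm : ∀ u ∈ U, ContDiffAt ℝ ∞ ν u
  unit : ∀ u ∈ U, ‖ν u‖ = 1
  pos : ∀ u ∈ U, inner ℝ (ν u) (f u) = 0
  tan : ∀ u ∈ U, ∀ v, inner ℝ (ν u) (d1 f u v) = 0

theorem Nor.diff (hν : Nor f ν U) (hu : u ∈ U) : DifferentiableAt ℝ ν u :=
  (hν.sm u hu).differentiableAt (by simp)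

theorem Nor.wein (hν : Nor f ν U) (hf : Good f U) (hu : u ∈ U) (v w : Fin m → ℝ) :
    inner ℝ (fderiv ℝ ν u w) (d1 f u v) = -inner ℝ (ν u) (d2 f u v w) :=
  eq_neg_of_add_eq_zero_right (inner_const (hν.diff hu)
    ((sm_d1 (hf.sm u hu) v).differentiableAt (by simp)) (hf.ev hu fun z hz => hν.tan z hz v) w)

theorem Nor.dpos (hν : Nor f ν U) (hf : Good f U) (hu : u ∈ U) (w : Fin m → ℝ) :
    inner ℝ (fderiv ℝ ν u w) (f u) = 0 := by
  have h := inner_const (hν.diff hu) (hf.diff hu) (hf.ev hu hν.pos) w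
  rwa [show inner ℝ (ν u) (fderiv ℝ f u w) = 0 from hν.tan u hu w, zero_add] at h

/-- the frame of coordinate vectors, the position and a further vector -/
def fr (f : (Fin m → ℝ) → E (m + 2)) (u : Fin m → ℝ) (y : E (m + 2)) :
    Fin m ⊕ Fin 2 → E (m + 2) := Sum.elim (fun i => d1 f u (Pi.single i 1)) ![f u, y]

theorem fr_upd (y : E (m + 2)) : Function.update (fr f u 0) (Sum.inr 1) y = fr f u y := by
  funext k
  rcases k with i | j
  · simp [fr]
  · fin_cases j <;> simp [fr]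

theorem exists_nor (hf : Good f U) : ∃ ν, Nor f ν U := by
  let D := (ob m).toBasis.det
  let N : (Fin m → ℝ) → E (m + 2) := fun u => ∑ j, D (fr f u (ob m j)) • ob m j
  have h1 : ∀ u y, inner ℝ (N u) y = D (fr f u y) := fun u y => by
    have h2 := map_sum (D.toMultilinearMap.toLinearMap (fr f u 0) (Sum.inr 1))
      (fun j => inner ℝ (ob m j) y • ob m j) univ
    rw [(ob m).sum_repr'] at h2
    simp only [map_smul, MultilinearMap.toLinearMap_apply, fr_upd, AlternatingMap.coe_multilinearMap,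
      smul_eq_mul] at h2
    simp only [N, sum_inner, real_inner_smul_left, h2, mul_comm]
  have h2 : ∀ u ∈ U, ContDiffAt ℝ ∞ N u := fun u hu => by
    let C : ContinuousMultilinearMap ℝ (fun _ : Fin m ⊕ Fin 2 => E (m + 2)) ℝ :=
      ⟨D.toMultilinearMap, Continuous.matrix_det (A := (ob m).toBasis.toMatrix)
        (continuous_matrix fun i j =>
          ((ob m).toBasis.coord i).continuous_of_finiteDimensional.comp (continuous_apply j))⟩
    refine ContDiffAt.sum fun j _ => (C.contDiff.contDiffAt.comp u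
      (contDiffAt_pi.2 fun k => ?_)).smul contDiffAt_const
    rcases k with i | i
    · exact sm_d1 (hf.sm u hu) _
    · fin_cases i
      exacts [hf.sm u hu, contDiffAt_const]
  have h3 : ∀ u ∈ U, N u ≠ 0 := fun u hu h0 => by
    obtain ⟨b, -, hb, -⟩ := exists_diag (hf.inj u hu) 0 fun _ _ => rfl
    obtain ⟨y, y1, y2, y3⟩ := exists_unit (fderiv ℝ f u) (f u)
    obtain ⟨w, w1, w2, w3⟩ := exists_ob hb (hf.unit u hu) y1 y2 (fun i => hf.perp hu _)
      fun i => y3 _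
    let T : X m →ₗ[ℝ] E (m + 2) := (fderiv ℝ f u).toLinearMap.coprod
      (Fintype.linearCombination ℝ ![f u, y])
    have h4 := det_key T b w (fun _ => 1) (fun i => by simp [T, w1])
      fun j => by fin_cases j <;> simp [T, w2, w3]
    have h5 : T ∘ bX m = fr f u y := by
      funext k
      rcases k with i | j
      · simp [T, bX_inl, fr, d1]
      · simp [T, bX_inr, fr]
    rw [det_LX, h5, ← h1, h0] at h4
    simp at h4
  refine ⟨fun u => ‖N u‖⁻¹ • N u, fun u hu => ?_, fun u hu => norm_smul_inv_norm (h3 u hu),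
    fun u hu => ?_, fun u hu v => ?_⟩
  · exact (((h2 u hu).norm ℝ (h3 u hu)).inv (norm_ne_zero_iff.2 (h3 u hu))).smul (h2 u hu)
  · rw [real_inner_smul_left, h1, D.map_eq_zero_of_eq _ (i := Sum.inr 0) (j := Sum.inr 1) rfl
      (by simp), mul_zero]
  · rw [real_inner_smul_left, pi_eq_sum_univ' v, d1, map_sum, inner_sum, sum_eq_zero, mul_zero]
    intro i _
    rw [map_smul, real_inner_smul_right, h1, D.map_eq_zero_of_eq _ (i := Sum.inl i)
      (j := Sum.inr 1) rfl (by simp), mul_zero]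

theorem second_test {φ φ1 : ℝ → ℝ} {L : ℝ} (hm : IsLocalMax φ 0)
    (h1 : ∀ᶠ t in 𝓝 (0 : ℝ), HasDerivAt φ (φ1 t) t) (h2 : HasDerivAt φ1 L 0) : L ≤ 0 := by
  by_contra hL
  have hL' : 0 < L := not_le.1 hL
  have h0 : φ1 0 = 0 := hm.hasDerivAt_eq_zero h1.self_of_nhds
  have h3 : ∀ᶠ t in 𝓝[>] (0 : ℝ), 0 < φ1 t := by
    have h4 := h2.tendsto_slope_zero_right.eventually (lt_mem_nhds hL')
    filter_upwards [h4, self_mem_nhdsWithin] with t ht ht0
    simp only [zero_add, h0, sub_zero, smul_eq_mul] at ht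
    exact (pos_iff_pos_of_mul_pos ht).1 (inv_pos.2 ht0)
  obtain ⟨δ, hδ, h5⟩ := Metric.eventually_nhds_iff.1
    ((h1.and hm).and (eventually_nhdsWithin_iff.1 h3))
  have h6 : ∀ t, 0 ≤ t → t ≤ δ / 2 → dist t 0 < δ := fun t a b => by
    rw [Real.dist_eq, sub_zero, abs_of_nonneg a]
    linarith
  obtain ⟨ξ, hξ, e⟩ := exists_hasDerivAt_eq_slope φ φ1 (half_pos hδ)
    (fun t ht => (h5 (h6 t ht.1 ht.2)).1.1.continuousAt.continuousWithinAt)
    fun t ht => (h5 (h6 t ht.1.le ht.2.le)).1.1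
  have h7 := (h5 (h6 ξ hξ.1.le hξ.2.le)).2 hξ.1
  have h8 := (h5 (h6 (δ / 2) (half_pos hδ).le le_rfl)).1.2
  rw [e] at h7
  have := div_nonpos_of_nonpos_of_nonneg (sub_nonpos.2 h8) (by linarith : 0 ≤ δ / 2 - 0)
  linarith

theorem line_deriv {F : Type} [NormedAddCommGroup F] [NormedSpace ℝ F] {g : (Fin m → ℝ) → F}
    {v : Fin m → ℝ} {t : ℝ} (hg : DifferentiableAt ℝ g (u + t • v)) :
    HasDerivAt (fun s : ℝ => g (u + s • v)) (fderiv ℝ g (u + t • v) v) t := by
  simpa [Function.comp_def] using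
    hg.hasFDerivAt.comp_hasDerivAt t (((hasDerivAt_id t).smul_const v).const_add u)

theorem Good.contact (hf : Good f U) (hu : u ∈ U) {y : E (m + 2)}
    (h : IsLocalMax (fun z => inner ℝ y (f z)) u) (v : Fin m → ℝ) :
    inner ℝ y (d1 f u v) = 0 ∧ inner ℝ y (d2 f u v v) ≤ 0 := by
  have h0 : u + (0 : ℝ) • v = u := by simp
  have h1 : ContinuousAt (fun s : ℝ => u + s • v) 0 := by fun_prop
  have h2 := IsLocalMax.comp_continuous (g := fun s : ℝ => u + s • v) (b := 0) (by rwa [h0]) h1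
  have h3 : ∀ᶠ t : ℝ in 𝓝 0, HasDerivAt (fun s : ℝ => inner ℝ y (f (u + s • v)))
      (inner ℝ y (d1 f (u + t • v) v)) t := by
    filter_upwards [h1.eventually (hf.op.mem_nhds (show u + (0 : ℝ) • v ∈ U by rwa [h0]))] with t ht
    exact (innerSL ℝ y).hasFDerivAt.comp_hasDerivAt t (line_deriv (hf.diff ht))
  have h4 := (innerSL ℝ y).hasFDerivAt.comp_hasDerivAt 0 (line_deriv (u := u) (v := v) (t := 0)
    (by rw [h0]; exact (sm_d1 (hf.sm u hu) v).differentiableAt (by simp)))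
  have h5 := h2.hasDerivAt_eq_zero h3.self_of_nhds
  rw [h0] at h4 h5
  exact ⟨h5, second_test h2 h3 h4⟩

end Vale.Agent.P224
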