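import Vale.Agent.P224.Tube

/-! The global volume estimate. -/

open Finset Filter Topology MeasureTheory
open scoped ContDiff ENNReal Manifold

noncomputable section

namespace Vale.Agent.P224

variable {m : ℕ} {M : Type} [TopologicalSpace M] [ChartedSpace (Fin m → ℝ) M]
  [IsManifold 𝓘(ℝ, Fin m → ℝ) ∞ M] {F : M → E (m + 2)}

theorem good_loc (hF : ContMDiff 𝓘(ℝ, Fin m → ℝ) 𝓘(ℝ, E (m + 2)) ∞ F) (h1 : ∀ p, ‖F p‖ = 1)
    (hi : ∀ p, Function.Injective (mfderiv 𝓘(ℝ, Fin m → ℝ) 𝓘(ℝ, E (m + 2)) F p)) (x : M) :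
    Good (loc F x) (chartAt (Fin m → ℝ) x).target := by
  have ho := (chartAt (Fin m → ℝ) x).open_target
  have h2 : ∀ u ∈ (chartAt (Fin m → ℝ) x).target, ContMDiffAt 𝓘(ℝ, Fin m → ℝ) 𝓘(ℝ, Fin m → ℝ) ∞
      (chartAt (Fin m → ℝ) x).symm u := fun u hu =>
    contMDiffOn_chart_symm.contMDiffAt (ho.mem_nhds hu)
  refine ⟨ho, fun u hu => (hF.contMDiffAt.comp u (h2 u hu)).contDiffAt, fun u _ => h1 _,
    fun u hu => ?_⟩
  have h3 := mfderiv_comp u (hF.mdifferentiableAt (by simp)) ((h2 u hu).mdifferentiableAt (by simp))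
  rw [mfderiv_eq_fderiv] at h3
  rw [loc, h3]
  exact (hi _).comp ((mdifferentiable_chart (I := 𝓘(ℝ, Fin m → ℝ)) x).symm.mfderiv_injective hu)

theorem vol_ge [CompactSpace M] [Nonempty M] (hm : 1 ≤ m)
    (hF : ContMDiff 𝓘(ℝ, Fin m → ℝ) 𝓘(ℝ, E (m + 2)) ∞ F) (h1 : ∀ p, ‖F p‖ = 1)
    (hi : ∀ p, Function.Injective (mfderiv 𝓘(ℝ, Fin m → ℝ) 𝓘(ℝ, E (m + 2)) F p))
    (hH : IsMinimal F) (hS : SffSqIn F (Set.Ici m)) : ENNReal.ofReal (aMin m) ≤ vol F := by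
  refine le_iInf fun x => le_iInf fun B => le_iInf fun hB => le_iInf fun hc => ?_
  have hp : 0 < Real.pi ^ (((m : ℝ) + 2) / 2) := Real.rpow_pos_of_pos Real.pi_pos _
  refine (ENNReal.mul_le_mul_iff_right (ENNReal.ofReal_pos.2 hp).ne' ENNReal.ofReal_ne_top).1 ?_
  have h2 : (Set.univ : Set (X m)) ⊆ ⋃ i, LX m ''
      {y | ∃ u ∈ B i, IsLocalMax (fun z => inner ℝ y (loc F (x i) z)) u} := by
    intro q _
    obtain ⟨y, rfl⟩ := (LX m).surjective q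
    obtain ⟨p, -, hp⟩ := isCompact_univ.exists_isMaxOn Set.univ_nonempty
      (f := fun p => inner ℝ y (F p)) (continuous_const.inner hF.continuous).continuousOn
    obtain ⟨i, u, hu, rfl⟩ := Set.mem_iUnion.1 (hc ▸ Set.mem_univ p)
    exact Set.mem_iUnion.2 ⟨i, y, ⟨u, hu, Eventually.of_forall fun z => hp (Set.mem_univ _)⟩, rfl⟩
  rw [← ENNReal.tsum_mul_left, mul_comm, ← gw_int, ← setLIntegral_univ]
  refine (mul_le_mul_right ((lintegral_mono_set h2).trans (lintegral_iUnion_le _ _)) _).trans ?_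
  rw [← ENNReal.tsum_mul_left, setLIntegral_univ, gw_int]
  exact ENNReal.tsum_le_tsum fun i => tube hm (good_loc hF h1 hi (x i))
    (fun u hu b ν h => ⟨hH _ u hu b ν h, hS _ u hu b ν h⟩) (hB i).1 (hB i).2

end Vale.Agent.P224
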