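import Vale.Agent.P224.Stmt

/-! Linear algebra: adapted frames and determinants. -/

open Finset Module Matrix

noncomputable section

namespace Vale.Agent.P224

variable {m : ℕ}

/-- the parameter space of the normal bundle -/
abbrev X (m : ℕ) : Type := (Fin m → ℝ) × (Fin 2 → ℝ)

/-- the standard basis of the ambient space -/
def ob (m : ℕ) : OrthonormalBasis (Fin m ⊕ Fin 2) ℝ (E (m + 2)) :=
  (EuclideanSpace.basisFun _ ℝ).reindex finSumFinEquiv.symm

/-- the standard basis of the parameter space -/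
def bX (m : ℕ) : Basis (Fin m ⊕ Fin 2) ℝ (X m) := (Pi.basisFun ℝ _).prod (Pi.basisFun ℝ _)

/-- the identification of the two spaces -/
def LX (m : ℕ) : E (m + 2) ≃ₗ[ℝ] X m := (ob m).toBasis.equiv (bX m) (Equiv.refl _)

theorem bX_eq : bX m = (ob m).toBasis.map (LX m) := by
  rw [LX, Basis.map_equiv, Equiv.refl_symm, Basis.reindex_refl]

theorem bX_inl (i : Fin m) : bX m (Sum.inl i) = (Pi.single i 1, 0) := by simp [bX]

theorem bX_inr (j : Fin 2) : bX m (Sum.inr j) = (0, Pi.single j 1) := by simp [bX]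

theorem norm_LX (y : E (m + 2)) :
    ∑ i, (LX m y).1 i ^ 2 + ∑ j, (LX m y).2 j ^ 2 = ‖y‖ ^ 2 := by
  have h : ∀ k, (bX m).repr (LX m y) k = (ob m).repr y k := fun k => by simp [bX_eq]
  rw [← (ob m).repr.norm_map, EuclideanSpace.real_norm_sq_eq, Fintype.sum_sum_type]
  simp [← h, bX]

theorem det_LX (T : X m →ₗ[ℝ] E (m + 2)) :
    LinearMap.det ((LX m).toLinearMap ∘ₗ T) = (ob m).toBasis.det (T ∘ bX m) := by
  have h := (bX m).det_comp ((LX m).toLinearMap ∘ₗ T) (bX m)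
  rw [Basis.det_self, mul_one] at h
  rw [← h]
  nth_rw 1 [bX_eq]
  rw [Basis.det_map]
  exact congrArg _ (funext fun k => (LX m).symm_apply_apply _)

theorem det_key (T : X m →ₗ[ℝ] E (m + 2)) (b : Fin m → Fin m → ℝ)
    (w : OrthonormalBasis (Fin m ⊕ Fin 2) ℝ (E (m + 2))) (c : Fin m → ℝ)
    (h1 : ∀ i, T (b i, 0) = c i • w (Sum.inl i))
    (h2 : ∀ j, T (0, Pi.single j 1) = w (Sum.inr j)) :
    |LinearMap.det ((LX m).toLinearMap ∘ₗ T)| * |(Matrix.of b).det| = |∏ i, c i| := by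
  have h3 := det_LX (T ∘ₗ (Matrix.toLin' (Matrix.of b)ᵀ).prodMap LinearMap.id)
  rw [← LinearMap.comp_assoc, LinearMap.det_comp, LinearMap.det_prodMap, LinearMap.det_toLin',
    det_transpose, LinearMap.det_id, mul_one] at h3
  have h4 : (T ∘ₗ (Matrix.toLin' (Matrix.of b)ᵀ).prodMap LinearMap.id) ∘ bX m =
      fun k => Sum.elim c (fun _ => 1) k • w k := by
    funext k
    rcases k with i | j
    · simpa [bX_inl] using h1 i
    · simpa [bX_inr] using h2 j
  rw [← abs_mul, h3, h4, AlternatingMap.map_smul_univ, smul_eq_mul, abs_mul,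
    ← Real.norm_eq_abs ((ob m).toBasis.det w), OrthonormalBasis.det_to_matrix_orthonormalBasis]
  simp

theorem bil_mat (h : (Fin m → ℝ) →ₗ[ℝ] (Fin m → ℝ) →ₗ[ℝ] ℝ) (c : Fin m → Fin m → ℝ)
    (O : Matrix (Fin m) (Fin m) ℝ) (i j : Fin m) :
    h (∑ k, O i k • c k) (∑ l, O j l • c l) =
      (O * Matrix.of (fun k l => h (c k) (c l)) * Oᵀ) i j := by
  simp only [map_sum, map_smul, LinearMap.sum_apply, LinearMap.smul_apply, smul_eq_mul,
    Matrix.mul_apply, of_apply, transpose_apply, mul_comm (O j _)]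

/-- the pulled back inner product -/
def gm (D : (Fin m → ℝ) →L[ℝ] E (m + 2)) : (Fin m → ℝ) →ₗ[ℝ] (Fin m → ℝ) →ₗ[ℝ] ℝ :=
  (innerₗ _).compl₁₂ D.toLinearMap D.toLinearMap

theorem gm_apply (D : (Fin m → ℝ) →L[ℝ] E (m + 2)) (v w : Fin m → ℝ) :
    gm D v w = inner ℝ (D v) (D w) := rfl

theorem dens_mul {D : (Fin m → ℝ) →L[ℝ] E (m + 2)} {b : Fin m → Fin m → ℝ}
    (hb : Orthonormal ℝ fun i => D (b i)) :
    √(Matrix.of fun i j => inner ℝ (D (Pi.single i 1)) (D (Pi.single j 1))).det *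
      |(Matrix.of b).det| = 1 := by
  have h1 : Matrix.of b * Matrix.of (fun i j => gm D (Pi.single i 1) (Pi.single j 1)) *
      (Matrix.of b)ᵀ = 1 := by
    ext i j
    rw [← bil_mat, one_apply, ← orthonormal_iff_ite.1 hb i j, gm_apply]
    simp only [of_apply, ← pi_eq_sum_univ']
  have h2 := congrArg Matrix.det h1
  rw [det_mul, det_mul, det_transpose, det_one] at h2
  rw [← Real.sqrt_sq_eq_abs, ← Real.sqrt_mul' _ (sq_nonneg _), Real.sqrt_eq_one]
  simp only [gm_apply] at h2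
  linear_combination h2

theorem exists_diag {D : (Fin m → ℝ) →L[ℝ] E (m + 2)} (hD : Function.Injective D)
    (h : (Fin m → ℝ) →ₗ[ℝ] (Fin m → ℝ) →ₗ[ℝ] ℝ) (hs : ∀ v w, h v w = h w v) :
    ∃ (b : Fin m → Fin m → ℝ) (κ : Fin m → ℝ), (Orthonormal ℝ fun i => D (b i)) ∧
      ∀ i j, h (b i) (b j) = if i = j then κ i else 0 := by
  have h1 : finrank ℝ (LinearMap.range D.toLinearMap) = m := by
    rw [LinearMap.finrank_range_of_inj hD, finrank_fin_fun]
  let o := (stdOrthonormalBasis ℝ (LinearMap.range D.toLinearMap)).reindex (finCongr h1)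
  choose c hc using fun i => (o i).2
  have h2 : Matrix.of (fun k l => gm D (c k) (c l)) = 1 := by
    ext i j
    rw [one_apply, ← orthonormal_iff_ite.1 o.orthonormal i j, of_apply, Submodule.coe_inner, ← hc,
      ← hc]
    rfl
  have h3 : (Matrix.of fun k l => h (c k) (c l)).IsHermitian := by
    ext i j
    simpa using hs _ _
  have h4 := h3.conjStarAlgAut_star_eigenvectorUnitary
  rw [Unitary.conjStarAlgAut_star_apply] at h4
  have h5 := (Unitary.mem_iff.1 h3.eigenvectorUnitary.2).1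
  rw [star_eq_conjTranspose, conjTranspose_eq_transpose_of_trivial] at h4 h5
  refine ⟨fun i => ∑ k, (h3.eigenvectorUnitary : Matrix _ _ ℝ)ᵀ i k • c k, h3.eigenvalues,
    orthonormal_iff_ite.2 fun i j => ?_, fun i j => ?_⟩
  · rw [← gm_apply, bil_mat, h2, mul_one, transpose_transpose, h5, one_apply]
  · rw [bil_mat, transpose_transpose, h4, diagonal_apply]
    rfl

theorem exists_ob {v : Fin m → E (m + 2)} (hv : Orthonormal ℝ v) {x ν : E (m + 2)} (hx : ‖x‖ = 1)
    (hν : ‖ν‖ = 1) (h1 : inner ℝ ν x = 0) (h2 : ∀ i, inner ℝ x (v i) = 0)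
    (h3 : ∀ i, inner ℝ ν (v i) = 0) : ∃ w : OrthonormalBasis (Fin m ⊕ Fin 2) ℝ (E (m + 2)),
      (∀ i, w (Sum.inl i) = v i) ∧ w (Sum.inr 0) = x ∧ w (Sum.inr 1) = ν := by
  have h4 : Orthonormal ℝ (Sum.elim v ![x, ν]) := by
    rw [orthonormal_iff_ite] at hv ⊢
    rintro (i | i) (j | j)
    · simpa using hv i j
    · fin_cases j <;> simp [real_inner_comm _ (v i), h2, h3]
    · fin_cases i <;> simp [h2, h3]
    · fin_cases i <;> fin_cases j <;> simp [hx, hν, h1, real_inner_comm ν x]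
  obtain ⟨w, hw⟩ := Orthonormal.exists_orthonormalBasis_extension_of_card_eq (s := Set.univ)
    (by simp) (h4.comp _ Subtype.val_injective)
  exact ⟨w, fun i => hw _ trivial, hw _ trivial, hw _ trivial⟩

theorem exists_unit (D : (Fin m → ℝ) →L[ℝ] E (m + 2)) (x : E (m + 2)) :
    ∃ ν : E (m + 2), ‖ν‖ = 1 ∧ inner ℝ ν x = 0 ∧ ∀ v, inner ℝ ν (D v) = 0 := by
  have h1 : (D.toLinearMap.coprod (LinearMap.toSpanSingleton ℝ _ x)).range ≠ ⊤ := fun h => by
    have := LinearMap.finrank_range_le (D.toLinearMap.coprod (LinearMap.toSpanSingleton ℝ _ x))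
    rw [h] at this
    simp at this
  obtain ⟨y, h2, h3⟩ := Submodule.exists_mem_ne_zero_of_ne_bot
    (mt Submodule.orthogonal_eq_bot_iff.1 h1)
  rw [Submodule.mem_orthogonal'] at h2
  refine ⟨‖y‖⁻¹ • y, norm_smul_inv_norm h3, ?_, fun v => ?_⟩
  · rw [real_inner_smul_left, h2 x ⟨(0, 1), by simp⟩, mul_zero]
  · rw [real_inner_smul_left, h2 (D v) ⟨(v, 0), by simp⟩, mul_zero]

end Vale.Agent.P224
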