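import Vale.Agent.P224.Tube
import Vale.Agent.P224.Alg

/-! The gap for minimal hypersurfaces with second fundamental form of constant length. -/

open Finset Filter Topology
open scoped ContDiff

noncomputable section

namespace Vale.Agent.P224

variable {m : ℕ} {f ν : (Fin m → ℝ) → E (m + 2)} {U : Set (Fin m → ℝ)} {u : Fin m → ℝ}

theorem frame_exp (hf : Good f U) (hν : Nor f ν U) (hu : u ∈ U) :
    ∃ (b : Fin m → Fin m → ℝ) (κ : Fin m → ℝ), IsFrame f u b (ν u) ∧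
      meanCurv f u b (ν u) = ∑ i, κ i ∧ sffSq f u b (ν u) = ∑ i, κ i ^ 2 ∧
      (∀ i, fderiv ℝ ν u (b i) = -κ i • d1 f u (b i)) ∧
      ∀ y, d1 f u (∑ i, inner ℝ (d1 f u (b i)) y • b i) =
        y - inner ℝ (f u) y • f u - inner ℝ (ν u) y • ν u := by
  obtain ⟨b, κ, w, k1, k2, w1, w2, w3, k3⟩ := exists_frame hf hν hu
  refine ⟨b, κ, k1, by simp [meanCurv, k2], by simp [sffSq, k2], k3, fun y => ?_⟩
  have h := w.sum_repr' y
  simp only [Fintype.sum_sum_type, Fin.sum_univ_two, w1, w2, w3] at h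
  rw [sub_sub, eq_sub_iff_add_eq, ← h, h]
  simp only [d1, map_sum, map_smul] at h ⊢
  exact h

theorem exists_V (hf : Good f U) (hν : Nor f ν U) :
    ∃ V : (Fin m → ℝ) → E (m + 2) →L[ℝ] Fin m → ℝ, ∀ u ∈ U, ContDiffAt ℝ ∞ V u ∧
      ∀ y, d1 f u (V u y) = y - inner ℝ (f u) y • f u - inner ℝ (ν u) y • ν u := by
  let Φ : (Fin m → ℝ) → ((Fin m → ℝ) × ℝ × ℝ) →L[ℝ] E (m + 2) := fun u =>
    (fderiv ℝ f u).comp (.fst ℝ _ _) +
      ((ContinuousLinearMap.fst ℝ ℝ ℝ).comp (.snd ℝ _ _)).smulRight (f u) +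
      ((ContinuousLinearMap.snd ℝ ℝ ℝ).comp (.snd ℝ _ _)).smulRight (ν u)
  have h1 : ∀ u p, Φ u p = d1 f u p.1 + p.2.1 • f u + p.2.2 • ν u := fun _ _ => rfl
  have h2 : ∀ u ∈ U, ∀ p, inner ℝ (f u) (Φ u p) = p.2.1 ∧ inner ℝ (ν u) (Φ u p) = p.2.2 :=
    fun u hu p => by
      simp [h1, inner_add_right, real_inner_smul_right, hf.perp hu, hf.unit u hu, hν.unit u hu,
        hν.tan u hu, hν.pos u hu, real_inner_comm (ν u) (f u)]
  refine ⟨fun u => (ContinuousLinearMap.fst ℝ _ _).comp (Φ u).inverse, fun u hu => ?_⟩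
  have h3 : (Φ u).IsInvertible := by
    refine ⟨ContinuousLinearEquiv.ofBijective (Φ u) (LinearMap.ker_eq_bot'.2 fun p hp => ?_)
      (LinearMap.range_eq_top.2 fun y => ?_), rfl⟩
    · replace hp : Φ u p = 0 := hp
      obtain ⟨h3, h4⟩ := h2 u hu p
      rw [hp, inner_zero_right] at h3 h4
      rw [h1, ← h3, ← h4, zero_smul, zero_smul, add_zero, add_zero] at hp
      exact Prod.ext (hf.inj u hu (hp.trans (map_zero _).symm)) (Prod.ext h3.symm h4.symm)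
    · obtain ⟨b, -, -, -, -, -, h⟩ := frame_exp hf hν hu
      exact ⟨(_, inner ℝ (f u) y, inner ℝ (ν u) y), (h1 _ _).trans (by rw [h y]; abel)⟩
  refine ⟨contDiffAt_const.clm_comp (h3.contDiffAt_map_inverse.comp u
    ((((sm_fderiv (hf.sm u hu)).clm_comp contDiffAt_const).add
      (contDiffAt_const.smulRight (hf.sm u hu))).add (contDiffAt_const.smulRight (hν.sm u hu)))),
    fun y => ?_⟩
  have h4 := h3.self_apply_inverse y
  obtain ⟨h5, h6⟩ := h2 u hu ((Φ u).inverse y)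
  rw [h4] at h5 h6
  rw [h5, h6, sub_sub, eq_sub_iff_add_eq, ← add_assoc]
  exact h4

/-- smooth functions on `U` -/
def Sm (U : Set (Fin m → ℝ)) : Subring (U → ℝ) where
  carrier := {φ | ∃ g : (Fin m → ℝ) → ℝ, (∀ u ∈ U, ContDiffAt ℝ ∞ g u) ∧ φ = fun u => g u.1}
  mul_mem' := by
    rintro _ _ ⟨g, hg, rfl⟩ ⟨h, hh, rfl⟩
    exact ⟨g * h, fun u hu => (hg u hu).mul (hh u hu), rfl⟩
  one_mem' := ⟨1, fun _ _ => contDiffAt_const, rfl⟩
  add_mem' := by
    rintro _ _ ⟨g, hg, rfl⟩ ⟨h, hh, rfl⟩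
    exact ⟨g + h, fun u hu => (hg u hu).add (hh u hu), rfl⟩
  zero_mem' := ⟨0, fun _ _ => contDiffAt_const, rfl⟩
  neg_mem' := by
    rintro _ ⟨g, hg, rfl⟩
    exact ⟨-g, fun u hu => (hg u hu).neg, rfl⟩

/-- derivations along smooth vector fields -/
theorem exists_der (hU : IsOpen U) {W : (Fin m → ℝ) → Fin m → ℝ}
    (hW : ∀ u ∈ U, ContDiffAt ℝ ∞ W u) : ∃ δ : Sm U →+ Sm U, ∀ (φ : Sm U) (g : (Fin m → ℝ) → ℝ),
      (∀ u : U, φ.1 u = g u) → ∀ u : U, (δ φ).1 u = fderiv ℝ g u (W u) := by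
  choose g h1 h2 using fun φ : Sm U => φ.2
  have h3 : ∀ (φ : Sm U) (g' : (Fin m → ℝ) → ℝ), (∀ u : U, φ.1 u = g' u) → ∀ u : U,
      fderiv ℝ (g φ) u = fderiv ℝ g' u := fun φ g' h u =>
    EventuallyEq.fderiv_eq (mem_of_superset (hU.mem_nhds u.2) fun z hz =>
      (congrFun (h2 φ) ⟨z, hz⟩).symm.trans (h ⟨z, hz⟩))
  refine ⟨AddMonoidHom.mk' (fun φ => ⟨fun u => fderiv ℝ (g φ) u (W u), fun u =>
    fderiv ℝ (g φ) u (W u), fun u hu => ((h1 φ u hu).fderiv_right (by simp)).clm_apply (hW u hu),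
    rfl⟩) fun φ ψ => Subtype.ext (funext fun u => ?_), fun φ g' h u => congrArg (· (W u)) (h3 φ g' h u)⟩
  change fderiv ℝ (g (φ + ψ)) u _ = _ + _
  rw [h3 _ (g φ + g ψ) fun z => congrArg₂ (· + ·) (congrFun (h2 φ) z) (congrFun (h2 ψ) z),
    fderiv_add ((h1 φ u u.2).differentiableAt (by simp)) ((h1 ψ u u.2).differentiableAt (by simp))]
  rfl

theorem bracket {F : Type} [NormedAddCommGroup F] [NormedSpace ℝ F] {g : (Fin m → ℝ) → F}
    {V W : (Fin m → ℝ) → Fin m → ℝ} (hg : ContDiffAt ℝ ∞ g u) (hV : ContDiffAt ℝ ∞ V u)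
    (hW : ContDiffAt ℝ ∞ W u) :
    fderiv ℝ (fun z => fderiv ℝ g z (W z)) u (V u) - fderiv ℝ (fun z => fderiv ℝ g z (V z)) u (W u) =
      fderiv ℝ g u (VectorField.lieBracket ℝ V W u) :=
  (VectorField.fderiv_apply_lieBracket hg (by simp; exact WithTop.coe_le_coe.2 le_top)
    (hW.differentiableAt (by simp))
    (hV.differentiableAt (by simp))).symm

theorem coord {g : (Fin m → ℝ) → E (m + 2)} (hg : ContDiffAt ℝ ∞ g u) (a : Fin (m + 2)) :
    ContDiffAt ℝ ∞ (fun u => g u a) u ∧ ∀ v, fderiv ℝ (fun u => g u a) u v = fderiv ℝ g u v a :=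
  ⟨(EuclideanSpace.proj (𝕜 := ℝ) a).contDiff.contDiffAt.comp u hg, fun v =>
    congrArg (· v) ((EuclideanSpace.proj (𝕜 := ℝ) a).hasFDerivAt.comp u
      (hg.differentiableAt (by simp)).hasFDerivAt).fderiv⟩

/-- coordinate functions -/
def cf {g : (Fin m → ℝ) → E (m + 2)} (hg : ∀ u ∈ U, ContDiffAt ℝ ∞ g u) (a : Fin (m + 2)) : Sm U :=
  ⟨_, _, fun u hu => (coord (hg u hu) a).1, rfl⟩

theorem sm_sum (z : U) (t : Fin (m + 2) → Sm U) : (∑ a, t a).1 z = ∑ a, (t a).1 z :=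
  map_sum ((Pi.evalRingHom _ z).comp (Sm U).subtype) t univ

theorem ip_sum (y y' : E (m + 2)) : ∑ a, y a * y' a = inner ℝ y y' := by
  simp [PiLp.inner_apply, mul_comm]

section

variable {W : Fin (m + 2) → (Fin m → ℝ) → Fin m → ℝ} {δ : Fin (m + 2) → Sm U →+ Sm U}
  (hδ : ∀ a (φ : Sm U) (g : (Fin m → ℝ) → ℝ), (∀ u : U, φ.1 u = g u) →
    ∀ u : U, (δ a φ).1 u = fderiv ℝ g u (W a u))
include hδ

theorem der_mul (a : Fin (m + 2)) (φ ψ : Sm U) : δ a (φ * ψ) = φ * δ a ψ + ψ * δ a φ := by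
  obtain ⟨_, g, hg, rfl⟩ := φ
  obtain ⟨_, h, hh, rfl⟩ := ψ
  refine Subtype.ext (funext fun z => ?_)
  rw [hδ a _ (g * h) fun _ => rfl, fderiv_mul ((hg z z.2).differentiableAt (by simp))
    ((hh z z.2).differentiableAt (by simp))]
  exact (congrArg₂ (fun s t => g z * s + h z * t) (hδ a _ h (fun _ => rfl) z)
    (hδ a _ g (fun _ => rfl) z)).symm

theorem der_lin (k : Fin (m + 2) → Sm U) (φ : Sm U) (g : (Fin m → ℝ) → ℝ)
    (h : ∀ u : U, φ.1 u = g u) (z : U) :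
    (∑ a, k a * δ a φ).1 z = fderiv ℝ g z (∑ a, (k a).1 z • W a z) := by
  rw [sm_sum, map_sum]
  exact sum_congr rfl fun a _ => by rw [map_smul, ← hδ a φ g h z]; rfl

theorem der_br0 (hf : Good f U) (k : Fin (m + 2) → Sm U)
    (hk : ∀ b, ∑ e, k e * δ e (cf hf.sm b) = 0) (φ : Sm U) : ∑ e, k e * δ e φ = 0 := by
  obtain ⟨_, g, hg, rfl⟩ := φ
  refine Subtype.ext (funext fun z => ?_)
  have h1 : ∑ a, (k a).1 z • W a z = 0 := hf.inj z z.2 (PiLp.ext fun b => by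
    rw [← (coord (hf.sm z z.2) b).2, ← der_lin hδ k (cf hf.sm b) _ fun _ => rfl, hk, map_zero]
    rfl)
  rw [der_lin hδ k _ g fun _ => rfl, h1, map_zero]
  rfl

theorem der_br (hf : Good f U) (hW : ∀ a, ∀ u ∈ U, ContDiffAt ℝ ∞ (W a) u) (i a : Fin (m + 2))
    (k : Fin (m + 2) → Sm U) (hk : ∀ b, δ i (δ a (cf hf.sm b)) - δ a (δ i (cf hf.sm b)) =
      ∑ e, k e * δ e (cf hf.sm b)) (φ : Sm U) :
    δ i (δ a φ) - δ a (δ i φ) = ∑ e, k e * δ e φ := by
  obtain ⟨_, g, hg, rfl⟩ := φ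
  refine Subtype.ext (funext fun z => ?_)
  have h1 : ∀ (φ : Sm U) (g : (Fin m → ℝ) → ℝ), (∀ u ∈ U, ContDiffAt ℝ ∞ g u) →
      (∀ u : U, φ.1 u = g u) → (δ i (δ a φ) - δ a (δ i φ)).1 z =
        fderiv ℝ g z (VectorField.lieBracket ℝ (W i) (W a) z) :=
    fun φ g hg h => (congrArg₂ (· - ·) (hδ i _ _ (hδ a φ g h) z) (hδ a _ _ (hδ i φ g h) z)).trans
      (bracket (hg z z.2) (hW i z z.2) (hW a z z.2))
  rw [der_lin hδ k _ g fun _ => rfl, h1 _ g hg fun _ => rfl]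
  refine congrArg _ (hf.inj z z.2 (PiLp.ext fun b => ?_))
  rw [← (coord (hf.sm z z.2) b).2, ← (coord (hf.sm z z.2) b).2,
    ← der_lin hδ k (cf hf.sm b) _ fun _ => rfl, ← hk,
    h1 (cf hf.sm b) _ (fun u hu => (coord (hf.sm u hu) b).1) fun _ => rfl]

end

theorem diag_sums {v : Fin m → E (m + 2)} (hv : Orthonormal ℝ v) (κ : Fin m → ℝ) :
    ∑ a, ∑ i, κ i * (v i a * v i a) = ∑ i, κ i ∧
      ∑ a, ∑ b, (∑ i, κ i * (v i a * v i b)) * ∑ i, κ i * (v i a * v i b) = ∑ i, κ i ^ 2 := by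
  constructor
  · rw [sum_comm]
    simp only [← mul_sum, ip_sum, real_inner_self_eq_norm_sq, hv.1, one_pow, mul_one]
  have h3 : ∀ i j, ∑ a, ∑ b, κ i * (v i a * v i b) * (κ j * (v j a * v j b)) =
      κ i * κ j * (inner ℝ (v i) (v j) * inner ℝ (v i) (v j)) := fun i j => by
    simp only [← ip_sum, sum_mul_sum]
    simp only [mul_sum]
    exact sum_congr rfl fun a _ => sum_congr rfl fun b _ => by ring
  simp only [sum_mul_sum]
  rw [sum_congr rfl fun a _ => sum_comm, sum_comm, sum_congr rfl fun i _ =>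
    (sum_congr rfl fun a _ => sum_comm).trans sum_comm]
  simp only [h3, orthonormal_iff_ite.1 hv]
  simp [sq]

theorem simons (hf : Good f U) (hu : u ∈ U) {c : ℝ} (hκ : ∀ u ∈ U, ∀ b ν, IsFrame f u b ν →
    meanCurv f u b ν = 0 ∧ sffSq f u b ν = c) : 0 ≤ c * (c - m) := by
  obtain ⟨ν, hν⟩ := exists_nor hf
  obtain ⟨V, hV⟩ := exists_V hf hν
  let W : Fin (m + 2) → (Fin m → ℝ) → Fin m → ℝ := fun a u => V u (EuclideanSpace.single a 1)
  have hW : ∀ a, ∀ u ∈ U, ContDiffAt ℝ ∞ (W a) u :=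
    fun a u hu => (hV u hu).1.clm_apply contDiffAt_const
  choose δ hδ using fun a => exists_der hf.op (hW a)
  let C : Sm U := ⟨_, fun _ => c, fun _ _ => contDiffAt_const, rfl⟩
  have hA : ∀ z : U, ∃ (v : Fin m → E (m + 2)) (κ : Fin m → ℝ), Orthonormal ℝ v ∧ ∑ i, κ i = 0 ∧
      ∑ i, κ i ^ 2 = c ∧ ∀ a b, (-δ a (cf hν.sm b)).1 z = ∑ i, κ i * (v i a * v i b) := by
    intro z
    obtain ⟨b, κ, k1, k2, k3, k4, k5⟩ := frame_exp hf hν z.2
    obtain ⟨k6, k7⟩ := hκ z z.2 b _ k1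
    refine ⟨_, κ, k1.orth, k2 ▸ k6, k3 ▸ k7, fun a a' => (congrArg Neg.neg
      ((hδ a _ _ (fun _ => rfl) z).trans ((coord (hν.sm z z.2) a').2 _))).trans ?_⟩
    rw [show W a z = _ from hf.inj z z.2 (((hV z z.2).2 _).trans (k5 _).symm)]
    simp [k4, EuclideanSpace.inner_single_right, mul_left_comm]
  have hT : Tang δ (cf hf.sm) (cf hν.sm) (fun a b => -δ a (cf hν.sm b)) C := by
    refine ⟨der_mul hδ, fun a b => Subtype.ext (funext fun z => ?_),
      fun a b => (neg_neg _).symm, fun a b => Subtype.ext (funext fun z => ?_),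
      Subtype.ext (funext fun z => ?_), Subtype.ext (funext fun z => ?_),
      Subtype.ext (funext fun z => ?_), der_br0 hδ hf, der_br hδ hf hW,
      Subtype.ext (funext fun z => ?_), Subtype.ext (funext fun z => ?_),
      fun a => Subtype.ext (funext fun z => ?_)⟩
    · refine ((hδ a _ _ (fun _ => rfl) z).trans ((coord (hf.sm z z.2) b).2 _)).trans
        ((congrArg (fun y : E (m + 2) => y b) ((hV z z.2).2 _)).trans ?_)
      split_ifs with h <;> simp [cf, EuclideanSpace.inner_single_right, h, Ne.symm]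
    · obtain ⟨v, κ, -, -, -, h⟩ := hA z
      simp only [h, mul_comm (v _ a)]
    · exact (sm_sum _ _).trans ((ip_sum _ _).trans (by simp [hf.unit z z.2]))
    · exact (sm_sum _ _).trans ((ip_sum _ _).trans (by simp [hν.unit z z.2]))
    · exact (sm_sum _ _).trans ((ip_sum _ _).trans ((real_inner_comm _ _).trans (hν.pos z z.2)))
    · obtain ⟨v, κ, h1, h2, -, h⟩ := hA z
      exact (sm_sum _ _).trans ((sum_congr rfl fun a _ => h a a).trans
        ((diag_sums h1 κ).1.trans h2))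
    · obtain ⟨v, κ, h1, -, h2, h⟩ := hA z
      exact (sm_sum _ _).trans ((sum_congr rfl fun a _ => (sm_sum z _).trans (sum_congr rfl
        fun b _ => congrArg₂ (· * ·) (h a b) (h a b))).trans ((diag_sums h1 κ).2.trans h2))
    · rw [hδ a _ (fun _ => c) fun _ => rfl]
      simp
  obtain ⟨T, h⟩ := hT.simons
  have h1 := congrArg ((Pi.evalRingHom _ (⟨u, hu⟩ : U)).comp (Sm U).subtype) h
  simp only [map_mul, map_sum, map_pow, map_sub, map_add, map_natCast, map_ofNat,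
    Fintype.card_fin] at h1
  have h2 : ((Pi.evalRingHom _ (⟨u, hu⟩ : U)).comp (Sm U).subtype) C = c := rfl
  rw [h2] at h1
  push_cast at h1
  have h3 := mul_left_cancel₀ two_ne_zero h1
  rw [show c - m = c + 2 - (m + 2) by ring, ← h3]
  positivity

end Vale.Agent.P224
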