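import Mathlib

/-!
Minimal hypersurfaces of the unit sphere: volume, mean curvature, second fundamental form.
-/

open scoped ENNReal ContDiff Manifold
open MeasureTheory

noncomputable section

namespace Vale.Agent.P224

/-- Euclidean space of dimension `n`. -/
abbrev E (n : ℕ) : Type := EuclideanSpace ℝ (Fin n)

/-- The volume of the unit sphere of dimension `n`. -/
def sphVol (n : ℕ) : ℝ := 2 * Real.pi ^ (((n : ℝ) + 1) / 2) / Real.Gamma (((n : ℝ) + 1) / 2)

/-- The volume of the minimal Clifford product of spheres of dimensions `k` and `m - k`. -/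
def cliffVol (m k : ℕ) : ℝ :=
  ((k : ℝ) / m) ^ ((k : ℝ) / 2) * (((m : ℝ) - k) / m) ^ (((m : ℝ) - k) / 2) *
    sphVol k * sphVol (m - k)

/-- The least volume of a minimal Clifford product. -/
def aMin (m : ℕ) : ℝ := sInf (cliffVol m '' Set.Ico 1 m)

section Generic

variable {V Z : Type} [NormedAddCommGroup V] [NormedSpace ℝ V] [NormedAddCommGroup Z]
  [NormedSpace ℝ Z]

/-- The first derivative in the direction `v`. -/
def d1 (f : V → Z) (u v : V) : Z := fderiv ℝ f u v

/-- The second derivative in the directions `v` and `w`. -/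
def d2 (f : V → Z) (u v w : V) : Z := d1 (fun z => d1 f z v) u w

variable (V) {M : Type} [TopologicalSpace M] [ChartedSpace V M]

/-- The differential of `F` at `p` is injective. -/
def InjDiff (F : M → Z) (p : M) : Prop := Function.Injective (mfderiv 𝓘(ℝ, V) 𝓘(ℝ, Z) F p)

/-- `M` is a smooth manifold modelled on `V` and `F` is a smooth immersion of `M` into the unit
sphere of `Z`. -/
structure IsSphImm (F : M → Z) : Prop where
  mfd : IsManifold 𝓘(ℝ, V) ∞ M
  smooth : ContMDiff 𝓘(ℝ, V) 𝓘(ℝ, Z) ∞ F
  unit : ∀ p, ‖F p‖ = 1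
  inj : ∀ p, InjDiff V F p

end Generic

section Local

variable {m : ℕ} (f : (Fin m → ℝ) → E (m + 2)) (u : Fin m → ℝ)

/-- The volume density (root of the Gram determinant) of the pulled back metric. -/
def density : ℝ :=
  √(Matrix.of fun i j => inner ℝ (d1 f u (Pi.single i 1)) (d1 f u (Pi.single j 1))).det

/-- `b` is an orthonormal basis for the pulled back metric and `ν` is a unit normal of the
hypersurface tangent to the sphere. -/
structure IsFrame (b : Fin m → Fin m → ℝ) (ν : E (m + 2)) : Prop where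
  orth : Orthonormal ℝ fun i => d1 f u (b i)
  unit : ‖ν‖ = 1
  perp_pos : inner ℝ ν (f u) = 0
  perp_tan : ∀ v, inner ℝ ν (d1 f u v) = 0

/-- The trace of the second fundamental form. -/
def meanCurv (b : Fin m → Fin m → ℝ) (ν : E (m + 2)) : ℝ := ∑ i, inner ℝ ν (d2 f u (b i) (b i))

/-- The squared norm of the second fundamental form. -/
def sffSq (b : Fin m → Fin m → ℝ) (ν : E (m + 2)) : ℝ :=
  ∑ i, ∑ j, inner ℝ ν (d2 f u (b i) (b j)) ^ 2

end Local

section Global

variable {m : ℕ} {M : Type} [TopologicalSpace M] [ChartedSpace (Fin m → ℝ) M] (F : M → E (m + 2))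

/-- The map `F` read in the chart at `x`. -/
def loc (x : M) : (Fin m → ℝ) → E (m + 2) := F ∘ (chartAt (Fin m → ℝ) x).symm

/-- The Riemannian volume of `M` for the pulled back metric: the infimum, over countable covers of
`M` by measurable pieces of charts, of the sum of the integrals of the density. -/
def vol : ℝ≥0∞ :=
  ⨅ (x : ℕ → M) (B : ℕ → Set (Fin m → ℝ))
    (_ : ∀ i, MeasurableSet (B i) ∧ B i ⊆ (chartAt (Fin m → ℝ) (x i)).target)
    (_ : ⋃ i, (chartAt (Fin m → ℝ) (x i)).symm '' B i = Set.univ),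
    ∑' i, ∫⁻ u in B i, ENNReal.ofReal (density (loc F (x i)) u)

/-- The mean curvature vanishes. -/
def IsMinimal : Prop :=
  ∀ x : M, ∀ u ∈ (chartAt (Fin m → ℝ) x).target, ∀ b ν, IsFrame (loc F x) u b ν →
    meanCurv (loc F x) u b ν = 0

/-- The squared norm of the second fundamental form takes all its values in `S`. -/
def SffSqIn (S : Set ℝ) : Prop :=
  ∀ x : M, ∀ u ∈ (chartAt (Fin m → ℝ) x).target, ∀ b ν, IsFrame (loc F x) u b ν →
    sffSq (loc F x) u b ν ∈ S

end Global

end Vale.Agent.P224
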