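import Vale.Agent.P224.WA
import Vale.Agent.P224.Stmt

/-! The Gaussian weight of a principal curvature vector is largest at the Clifford values. -/

open Finset MeasureTheory

noncomputable section

namespace Vale.Agent.P224

variable {m : ℕ}

/-- the integrand -/
def wi (κ : Fin m → ℝ) (p : Fin 2 → ℝ) : ℝ :=
  Real.exp (-(p 0 ^ 2 + p 1 ^ 2)) * pp κ (p 0) (p 1)

/-- the Gaussian weight -/
def W (κ : Fin m → ℝ) : ℝ := ∫ p, wi κ p

theorem wi_nonneg (κ : Fin m → ℝ) (p : Fin 2 → ℝ) : 0 ≤ wi κ p :=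
  mul_nonneg (Real.exp_pos _).le (pp_nonneg _ _ _)

theorem wi_cont : Continuous fun q : (Fin m → ℝ) × (Fin 2 → ℝ) => wi q.1 q.2 := by
  unfold wi pp
  fun_prop

theorem wi_le {κ : Fin m → ℝ} {R : ℝ} (hR : 0 ≤ R) (h : ∀ i, |κ i| ≤ R) (p : Fin 2 → ℝ) :
    ‖wi κ p‖ ≤ (1 + R) ^ m * Real.exp (m ^ 2) * ∏ j, Real.exp (-(1 / 2) * p j ^ 2) := by
  have h1 : ∀ i, max (p 0 - p 1 * κ i) 0 ≤ (1 + R) * Real.exp (|p 0| + |p 1|) := fun i => by
    have h2 := abs_le.1 ((abs_mul (p 1) (κ i)).trans_le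
      (mul_le_mul_of_nonneg_left (h i) (abs_nonneg _)))
    have h3 := Real.add_one_le_exp (|p 0| + |p 1|)
    have h4 := abs_nonneg (p 0)
    have h5 := abs_nonneg (p 1)
    refine max_le ?_ (by positivity)
    nlinarith [le_abs_self (p 0), mul_nonneg hR h4, mul_le_mul_of_nonneg_left h3 hR]
  have h2 : pp κ (p 0) (p 1) ≤ ((1 + R) * Real.exp (|p 0| + |p 1|)) ^ m := by
    refine (prod_le_prod (fun i _ => le_max_right _ _) fun i _ => h1 i).trans_eq ?_
    rw [prod_const, card_univ, Fintype.card_fin]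
  rw [Real.norm_of_nonneg (wi_nonneg κ p), wi, Fin.prod_univ_two, mul_assoc, ← Real.exp_add,
    ← Real.exp_add]
  refine (mul_le_mul_of_nonneg_left h2 (Real.exp_pos _).le).trans ?_
  rw [mul_pow, ← Real.exp_nat_mul, mul_left_comm, ← Real.exp_add]
  refine mul_le_mul_of_nonneg_left (Real.exp_le_exp.2 ?_) (by positivity)
  nlinarith [sq_nonneg (|p 0| - m), sq_nonneg (|p 1| - m), sq_abs (p 0), sq_abs (p 1)]

theorem bound_int (C : ℝ) :
    Integrable fun p : Fin 2 → ℝ => C * ∏ j, Real.exp (-(1 / 2) * p j ^ 2) :=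
  (Integrable.fintype_prod (f := fun _ x => Real.exp (-(1 / 2) * x ^ 2))
    fun _ => integrable_exp_neg_mul_sq (by norm_num)).const_mul C

theorem wi_meas (κ : Fin m → ℝ) : AEStronglyMeasurable (wi κ) volume :=
  (wi_cont.comp (Continuous.prodMk_right κ)).aestronglyMeasurable

theorem wi_int (κ : Fin m → ℝ) : Integrable (wi κ) :=
  (bound_int _).mono' (wi_meas κ)
    (ae_of_all _ (wi_le (norm_nonneg κ) fun i => norm_le_pi_norm κ i))

theorem W_cont (R : ℝ) (hR : 0 ≤ R) : ContinuousOn (W (m := m)) (Metric.closedBall 0 R) :=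
  continuousOn_of_dominated (fun κ _ => wi_meas κ) (fun κ hκ => ae_of_all _
    (wi_le hR fun i => (norm_le_pi_norm κ i).trans (mem_closedBall_zero_iff.1 hκ))) (bound_int _)
    (ae_of_all _ fun p => (wi_cont.comp (Continuous.prodMk_left p)).continuousOn)

theorem half_gauss {k : ℕ} (hk : k ≠ 0) :
    ∫ x : ℝ, Real.exp (-x ^ 2) * max x 0 ^ k = 1 / 2 * Real.Gamma ((k + 1) / 2) := by
  rw [← integral_rpow_mul_exp_neg_rpow two_pos (neg_one_lt_zero.trans_le k.cast_nonneg),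
    ← setIntegral_eq_integral_of_forall_compl_eq_zero (s := Set.Ioi 0) fun x hx => by
      rw [max_eq_right (not_lt.1 hx), zero_pow hk, mul_zero]]
  refine setIntegral_congr_fun measurableSet_Ioi fun x hx => ?_
  simp only [max_eq_left (le_of_lt (show 0 < x from hx)), Real.rpow_natCast, Real.rpow_two, mul_comm]

theorem rot_int {s c : ℝ} (h : s ^ 2 + c ^ 2 = 1) {k n : ℕ} (hk : k ≠ 0) (hn : n ≠ 0) :
    ∫ p : Fin 2 → ℝ, Real.exp (-(p 0 ^ 2 + p 1 ^ 2)) *
      (max (s * p 0 - c * p 1) 0 ^ k * max (c * p 0 + s * p 1) 0 ^ n) =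
      1 / 2 * Real.Gamma ((k + 1) / 2) * (1 / 2 * Real.Gamma ((n + 1) / 2)) := by
  have h1 : Matrix.det !![s, -c; c, s] = 1 := by
    rw [Matrix.det_fin_two_of]
    linarith
  have h2 := Real.map_matrix_volume_pi_eq_smul_volume_pi (h1.trans_ne one_ne_zero)
  rw [h1, inv_one, abs_one, ENNReal.ofReal_one, one_smul] at h2
  have h3 := integral_fintype_prod_volume_eq_prod
    (fun (j : Fin 2) (x : ℝ) => Real.exp (-x ^ 2) * max x 0 ^ (![k, n] j))
  simp only [Fin.prod_univ_two, Matrix.cons_val_zero, Matrix.cons_val_one, half_gauss hk,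
    half_gauss hn] at h3
  rw [← h3]
  conv_rhs => rw [← h2]
  rw [integral_map (LinearMap.continuous_of_finiteDimensional _).aemeasurable
    (Continuous.aestronglyMeasurable (by fun_prop))]
  refine integral_congr_ae (ae_of_all _ fun p => ?_)
  simp only [Matrix.toLin'_apply, Matrix.mulVec, dotProduct, Fin.sum_univ_two, Matrix.of_apply,
    Matrix.cons_val', Matrix.cons_val_zero, Matrix.cons_val_one, Matrix.cons_val_fin_one]
  rw [mul_mul_mul_comm, ← Real.exp_add, neg_mul, ← sub_eq_add_neg]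
  refine congrArg (fun t => Real.exp t * _) ?_
  linear_combination (p 0 ^ 2 + p 1 ^ 2) * h

theorem aMin_le {k : ℕ} (h1 : 1 ≤ k) (h2 : k < m) : aMin m ≤ cliffVol m k :=
  csInf_le ((Set.finite_Ico 1 m).image _).bddBelow ⟨k, ⟨h1, h2⟩, rfl⟩

theorem W_two {κ : Fin m → ℝ} {a b : ℝ} (ha : 0 < a) (hb : 0 < b) (h : ∀ l, κ l = a ∨ κ l = -b)
    (i j : Fin m) (hi : κ i = a) (hj : κ j = -b) (h1 : ∑ l, κ l = 0) (h2 : ∑ l, κ l ^ 2 = m) :
    W κ * aMin m ≤ Real.pi ^ (((m : ℝ) + 2) / 2) := by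
  classical
  obtain ⟨k, hk⟩ : ∃ k, k = (univ.filter fun l => κ l = a).card := ⟨_, rfl⟩
  obtain ⟨n, hn⟩ : ∃ n, n = (univ.filter fun l => ¬ κ l = a).card := ⟨_, rfl⟩
  have hab : -b ≠ a := by linarith
  have e : ∀ {A : Type} [CommMonoid A] (F : ℝ → A), ∏ l, F (κ l) = F a ^ k * F (-b) ^ n := by
    intro A _ F
    rw [← prod_filter_mul_prod_filter_not univ fun l => κ l = a, hk, hn, ← prod_const, ← prod_const]
    exact congrArg₂ _ (prod_congr rfl fun l hl => by rw [(mem_filter.1 hl).2])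
      (prod_congr rfl fun l hl => by rw [(h l).resolve_left (mem_filter.1 hl).2])
  have e' : ∀ F : ℝ → ℝ, ∑ l, F (κ l) = k * F a + n * F (-b) := fun F => by
    simpa using congrArg Multiplicative.toAdd (e fun x => Multiplicative.ofAdd (F x))
  have k0 : k ≠ 0 := hk ▸ card_ne_zero.2 ⟨i, by simp [hi]⟩
  have n0 : n ≠ 0 := hn ▸ card_ne_zero.2 ⟨j, by simp [hj, hab]⟩
  have hm : m = k + n := by
    rw [hk, hn, card_filter_add_card_filter_not, card_univ, Fintype.card_fin]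
  have k1 : (0 : ℝ) < k := by positivity
  have n1 : (0 : ℝ) < n := by positivity
  have hm' : (m : ℝ) = k + n := by exact_mod_cast hm
  rw [e' fun x => x] at h1
  rw [e' fun x => x ^ 2, hm'] at h2
  have h3 : a * b = 1 := mul_left_cancel₀ (add_pos k1 n1).ne' (by
    linear_combination h2 - (a - b) * h1)
  obtain ⟨s, s0, hs⟩ : ∃ s : ℝ, 0 < s ∧ s ^ 2 = k / m :=
    ⟨√(k / m), Real.sqrt_pos.2 (by rw [hm']; positivity), Real.sq_sqrt (by positivity)⟩
  have hc : (a * s) ^ 2 = (m - k) / m := by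
    rw [mul_pow, hs, ← mul_div_assoc, hm']
    refine congrArg (· / _) ?_
    linear_combination a * h1 + n * h3
  have h4 : s ^ 2 + (a * s) ^ 2 = 1 := by
    rw [hs, hc, ← add_div, add_sub_cancel, div_self (by rw [hm']; positivity)]
  have h5 : W κ * (s ^ k * (a * s) ^ n) =
      1 / 2 * Real.Gamma ((k + 1) / 2) * (1 / 2 * Real.Gamma ((n + 1) / 2)) := by
    rw [← rot_int h4 k0 n0, W, ← integral_mul_const]
    refine integral_congr_ae (ae_of_all _ fun p => ?_)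
    simp only [wi, pp]
    rw [e fun x => max (p 0 - p 1 * x) 0, mul_assoc, mul_mul_mul_comm, ← mul_pow, ← mul_pow,
      max_mul_of_nonneg _ _ s0.le, max_mul_of_nonneg _ _ (mul_pos ha s0).le, zero_mul, zero_mul]
    refine congrArg₂ (fun x y => _ * (max x 0 ^ k * max y 0 ^ n)) (by ring) ?_
    linear_combination p 1 * s * h3
  have h6 : 0 ≤ W κ := integral_nonneg (wi_nonneg κ)
  refine (mul_le_mul_of_nonneg_left (aMin_le (k := k) (by omega) (by omega)) h6).trans_eq ?_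
  have g1 := (Real.Gamma_pos_of_pos (show 0 < ((k : ℝ) + 1) / 2 by positivity)).ne'
  have g2 := (Real.Gamma_pos_of_pos (show 0 < ((n : ℝ) + 1) / 2 by positivity)).ne'
  have h7 : ∀ (x : ℝ) (q : ℕ), 0 < x → (x ^ 2) ^ ((q : ℝ) / 2) = x ^ q := fun x q hx => by
    rw [← Real.rpow_natCast, ← Real.rpow_mul hx.le, ← Real.rpow_natCast]
    refine congrArg _ ?_
    push_cast
    ring
  have h8 : (m : ℝ) - k = n := by linarith
  rw [cliffVol, ← hs, ← hc, h8, h7 _ _ s0, h7 _ _ (mul_pos ha s0), show m - k = n by omega,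
    mul_assoc, ← mul_assoc, h5, sphVol, sphVol, hm',
    show ((k : ℝ) + n + 2) / 2 = (k + 1) / 2 + (n + 1) / 2 by ring, Real.rpow_add Real.pi_pos]
  field_simp

theorem W_le (hm : 1 ≤ m) {κ : Fin m → ℝ} (h1 : ∑ l, κ l = 0) (h2 : (m : ℝ) ≤ ∑ l, κ l ^ 2) :
    W κ * aMin m ≤ Real.pi ^ (((m : ℝ) + 2) / 2) := by
  have m0 : (0 : ℝ) < m := by exact_mod_cast hm
  rcases le_or_gt (aMin m) 0 with ha | ha
  · exact (mul_nonpos_of_nonneg_of_nonpos (integral_nonneg (wi_nonneg κ)) ha).trans (by positivity)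
  set K : Set (Fin m → ℝ) := {κ | ∑ l, κ l = 0 ∧ ∑ l, κ l ^ 2 = m} with hK
  have K1 : K ⊆ Metric.closedBall 0 √m := fun κ hκ => mem_closedBall_zero_iff.2
    ((pi_norm_le_iff_of_nonneg (Real.sqrt_nonneg _)).2 fun i => Real.abs_le_sqrt
      (hκ.2 ▸ single_le_sum (fun l _ => sq_nonneg (κ l)) (mem_univ i)))
  have K2 : IsClosed K := (isClosed_eq (by fun_prop) continuous_const).inter
    (isClosed_eq (by fun_prop) continuous_const)
  have K3 := (isCompact_closedBall _ _).of_isClosed_subset K2 K1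
  have K4 := (W_cont _ (Real.sqrt_nonneg _)).mono K1
  have s0 := m0.trans_le h2
  have h3 : √(m / ∑ l, κ l ^ 2) • κ ∈ K := by
    simp only [hK, Set.mem_ofPred_eq, Pi.smul_apply, smul_eq_mul, mul_pow, ← mul_sum, h1, mul_zero,
      true_and]
    rw [Real.sq_sqrt (by positivity), div_mul_cancel₀ _ s0.ne']
  obtain ⟨κ₀, k1, k2⟩ := K3.exists_isMaxOn ⟨_, h3⟩ K4
  obtain ⟨κ₁, ⟨k3, k4⟩, k5⟩ := (K3.of_isClosed_subset
    (K4.preimage_isClosed_of_isClosed K2 (isClosed_Ici (a := W κ₀)))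
    Set.inter_subset_left).exists_isMaxOn ⟨κ₀, k1, le_refl (W κ₀)⟩
    (f := fun κ => ∑ l, κ l ^ 3) (Continuous.continuousOn (by fun_prop))
  have h4 : W κ ≤ W κ₁ := by
    refine le_trans (integral_mono (wi_int _) (wi_int _) fun p => ?_) ((k2 h3).trans k4)
    exact mul_le_mul_of_nonneg_left (pp_scale h1 (Real.sqrt_nonneg _)
      (Real.sqrt_le_one.2 ((div_le_one s0).2 h2)) _ _) (Real.exp_pos _).le
  refine (mul_le_mul_of_nonneg_right h4 ha.le).trans ?_
  have h5 : ∀ σ : ℝ, σ ^ 2 = 1 → ∃ i, 0 < σ * κ₁ i := fun σ hσ => by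
    by_contra! h
    have h6 := (sum_eq_zero_iff_of_nonpos fun i _ => h i).1 (by rw [← mul_sum, k3.1, mul_zero])
    have h7 : ∑ l, κ₁ l ^ 2 = 0 := sum_eq_zero fun l hl => by
      rw [← one_mul (_ ^ 2), ← hσ, ← mul_pow, h6 l hl, zero_pow two_ne_zero]
    linarith [k3.2]
  obtain ⟨i, hi⟩ := h5 1 (by norm_num)
  obtain ⟨j, hj⟩ := h5 (-1) (by norm_num)
  refine W_two (a := κ₁ i) (b := -κ₁ j) (by linarith) (by linarith) (fun l => ?_) i j rfl
    (neg_neg _).symm k3.1 k3.2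
  by_contra! h
  obtain ⟨x, y, θ, t0, t1, hx, hy, h6, h7⟩ := exists_step κ₁ (i := i) (j := j) (k := l)
    (by linarith) h.1.symm fun e => h.2 (by rw [neg_neg, e])
  have hx' : x ∈ K := ⟨hx.1.trans k3.1, hx.2.trans k3.2⟩
  have hy' : y ∈ K := ⟨hy.1.trans k3.1, hy.2.trans k3.2⟩
  have h8 : W κ₁ ≤ θ * W x + (1 - θ) * W y := by
    rw [W, W, W, ← integral_const_mul, ← integral_const_mul,
      ← integral_add ((wi_int _).const_mul _) ((wi_int _).const_mul _)]
    refine integral_mono (wi_int _) (((wi_int _).const_mul _).add ((wi_int _).const_mul _))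
      fun p => ?_
    simp only [wi]
    nlinarith [mul_le_mul_of_nonneg_left (h7 (p 0) (p 1))
      (Real.exp_pos (-(p 0 ^ 2 + p 1 ^ 2))).le]
  have h9 : W y ≤ W κ₀ := k2 hy'
  have h10 : W κ₀ ≤ W κ₁ := k4
  have h11 : W κ₀ ≤ W x := le_of_mul_le_mul_left (by
    nlinarith [mul_le_mul_of_nonneg_left h9 (sub_nonneg.2 t1)]) t0
  exact h6.not_ge (k5 ⟨hx', h11⟩)

end Vale.Agent.P224
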