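import Vale.Agent.P224.Frame
import Vale.Agent.P224.Cov
import Vale.Agent.P224.WB

/-! The normal map and the local volume estimate. -/

open Finset Filter Topology MeasureTheory
open scoped ContDiff ENNReal

noncomputable section

namespace Vale.Agent.P224

variable {m : ℕ} {f ν : (Fin m → ℝ) → E (m + 2)} {U : Set (Fin m → ℝ)} {u : Fin m → ℝ}

/-- a diagonal frame -/
theorem exists_frame (hf : Good f U) (hν : Nor f ν U) (hu : u ∈ U) :
    ∃ (b : Fin m → Fin m → ℝ) (κ : Fin m → ℝ)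
      (w : OrthonormalBasis (Fin m ⊕ Fin 2) ℝ (E (m + 2))), IsFrame f u b (ν u) ∧
      (∀ i j, inner ℝ (ν u) (d2 f u (b i) (b j)) = if i = j then κ i else 0) ∧
      (∀ i, w (Sum.inl i) = d1 f u (b i)) ∧ w (Sum.inr 0) = f u ∧ w (Sum.inr 1) = ν u ∧
      ∀ i, fderiv ℝ ν u (b i) = -κ i • d1 f u (b i) := by
  have hs := hf.sm u hu
  obtain ⟨b, κ, hb, hκ⟩ := exists_diag (hf.inj u hu)
    ((fderiv ℝ (fderiv ℝ f) u).toLinearMap₁₂.compr₂ (innerₗ _ (ν u))) fun v w =>
      congrArg (inner ℝ (ν u)) ((d2_eq hs w v).symm.trans ((d2_symm hs w v).trans (d2_eq hs v w)))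
  have h1 : ∀ i j, inner ℝ (ν u) (d2 f u (b i) (b j)) = if i = j then κ i else 0 := fun i j => by
    rw [d2_symm hs, d2_eq hs]
    exact hκ i j
  obtain ⟨w, w1, w2, w3⟩ := exists_ob hb (hf.unit u hu) (hν.unit u hu) (hν.pos u hu)
    (fun i => hf.perp hu _) fun i => hν.tan u hu _
  refine ⟨b, κ, w, ⟨hb, hν.unit u hu, hν.pos u hu, hν.tan u hu⟩, h1, w1, w2, w3, fun i => ?_⟩
  have h2 : ∀ j, inner ℝ (w (Sum.inl j)) (fderiv ℝ ν u (b i)) = if j = i then -κ i else 0 :=
    fun j => by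
      rw [w1, real_inner_comm]
      refine (hν.wein hf hu _ _).trans ?_
      rw [h1]
      split_ifs with h <;> simp [h]
  rw [← w.sum_repr' (fderiv ℝ ν u (b i)), Fintype.sum_sum_type, Fin.sum_univ_two, w2, w3,
    real_inner_comm _ (f u), hν.dpos hf hu, unit_perp (hν.diff hu) (hf.ev hu hν.unit)]
  simp only [h2]
  simp [w1, d1]

/-- the normal map -/
def nm (f ν : (Fin m → ℝ) → E (m + 2)) (x : X m) : E (m + 2) := x.2 0 • f x.1 + x.2 1 • ν x.1

theorem nm_deriv (hf : Good f U) (hν : Nor f ν U) {x : X m} (hx : x.1 ∈ U) :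
    DifferentiableAt ℝ (nm f ν) x ∧ ∀ v s, fderiv ℝ (nm f ν) x (v, s) =
      x.2 0 • d1 f x.1 v + s 0 • f x.1 + (x.2 1 • fderiv ℝ ν x.1 v + s 1 • ν x.1) := by
  have h1 : ∀ j, HasFDerivAt (fun x : X m => x.2 j) ((ContinuousLinearMap.proj j).comp
      (ContinuousLinearMap.snd ℝ (Fin m → ℝ) (Fin 2 → ℝ))) x := fun j =>
    ((ContinuousLinearMap.proj j).comp
      (ContinuousLinearMap.snd ℝ (Fin m → ℝ) (Fin 2 → ℝ))).hasFDerivAt
  have h2 := ((h1 0).smul ((hf.diff hx).hasFDerivAt.comp x hasFDerivAt_fst)).add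
    ((h1 1).smul ((hν.diff hx).hasFDerivAt.comp x hasFDerivAt_fst))
  exact ⟨h2.differentiableAt, fun v s => (congrArg (· (v, s)) h2.fderiv).trans rfl⟩

/-- the Gaussian weight -/
def gw (x : X m) : ℝ≥0∞ := ENNReal.ofReal (Real.exp (-(∑ i, x.1 i ^ 2 + ∑ j, x.2 j ^ 2)))

theorem gw_meas : Measurable (gw (m := m)) :=
  ENNReal.measurable_ofReal.comp (Continuous.measurable (by fun_prop))

theorem gw_int : ∫⁻ x : X m, gw x = ENNReal.ofReal (Real.pi ^ (((m : ℝ) + 2) / 2)) := by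
  have h1 : ∀ n : ℕ, Integrable (fun p : Fin n → ℝ => ∏ j, Real.exp (-1 * p j ^ 2)) := fun n =>
    Integrable.fintype_prod (f := fun _ x => Real.exp (-1 * x ^ 2))
      fun _ => integrable_exp_neg_mul_sq one_pos
  have h2 : ∀ n : ℕ, ∫ p : Fin n → ℝ, ∏ j, Real.exp (-1 * p j ^ 2) = Real.pi ^ ((n : ℝ) / 2) :=
    fun n => by
      rw [integral_fintype_prod_volume_eq_pow fun x : ℝ => Real.exp (-1 * x ^ 2), integral_gaussian,
        div_one, Fintype.card_fin, Real.sqrt_eq_rpow, ← Real.rpow_natCast,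
        ← Real.rpow_mul Real.pi_pos.le]
      exact congrArg _ (by ring)
  have h3 := ofReal_integral_eq_lintegral_ofReal ((h1 m).mul_prod (h1 2))
    (ae_of_all _ fun x => by positivity)
  rw [integral_prod_mul (fun p : Fin m → ℝ => ∏ j, Real.exp (-1 * p j ^ 2))
    (fun p : Fin 2 → ℝ => ∏ j, Real.exp (-1 * p j ^ 2)), h2, h2, ← Real.rpow_add Real.pi_pos,
    ← add_div, Nat.cast_two] at h3
  rw [h3]
  refine lintegral_congr fun x => congrArg ENNReal.ofReal ?_
  simp only [← Real.exp_sum, ← Real.exp_add, neg_mul, one_mul, sum_neg_distrib, neg_add]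

theorem tube (hm : 1 ≤ m) (hf : Good f U) (hκ : ∀ u ∈ U, ∀ b ν, IsFrame f u b ν →
      meanCurv f u b ν = 0 ∧ (m : ℝ) ≤ sffSq f u b ν) {B : Set (Fin m → ℝ)}
    (hB : MeasurableSet B) (hBU : B ⊆ U) :
    ENNReal.ofReal (aMin m) *
      ∫⁻ x in LX m '' {y | ∃ u ∈ B, IsLocalMax (fun z => inner ℝ y (f z)) u}, gw x ≤
      ENNReal.ofReal (Real.pi ^ (((m : ℝ) + 2) / 2)) * ∫⁻ u in B, ENNReal.ofReal (density f u) := by
  obtain ⟨ν, hν⟩ := exists_nor hf
  let L := (LX m).toLinearMap.toContinuousLinearMap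
  let s : Set (X m) := B ×ˢ Set.univ \
    ⋃ v, (U ×ˢ Set.univ ∩ (fun x => inner ℝ (nm f ν x) (d2 f x.1 v v)) ⁻¹' Set.Ioi 0)
  have hs : MeasurableSet s := by
    refine (hB.prod MeasurableSet.univ).diff (isOpen_iUnion fun v =>
      ContinuousOn.isOpen_inter_preimage (fun x hx => ContinuousAt.continuousWithinAt ?_)
        (hf.op.prod isOpen_univ) isOpen_Ioi).measurableSet
    exact ContinuousAt.inner (𝕜 := ℝ) (nm_deriv hf hν hx.1).1.continuousAt
      ((sm_d1 (sm_d1 (hf.sm _ hx.1) v) v).continuousAt.comp continuousAt_fst)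
  have h1 : LX m '' {y | ∃ u ∈ B, IsLocalMax (fun z => inner ℝ y (f z)) u} ⊆
      (fun x => L (nm f ν x)) '' s := by
    rintro _ ⟨y, ⟨u, hu, hy⟩, rfl⟩
    obtain ⟨b, κ, w, -, -, w1, w2, w3, -⟩ := exists_frame hf hν (hBU hu)
    have h2 : nm f ν (u, ![inner ℝ (f u) y, inner ℝ (ν u) y]) = y := by
      have h3 := w.sum_repr' y
      rw [Fintype.sum_sum_type, Fin.sum_univ_two, w2, w3, sum_eq_zero fun i _ => by
        rw [w1, real_inner_comm, (hf.contact (hBU hu) hy _).1, zero_smul], zero_add] at h3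
      exact h3
    refine ⟨(u, _), ⟨⟨hu, trivial⟩, fun h => ?_⟩, congrArg _ h2⟩
    obtain ⟨v, -, h3⟩ := Set.mem_iUnion.1 h
    exact not_lt.2 (hf.contact (hBU hu) hy v).2 (h2 ▸ h3)
  have : (volume : Measure (X m)).IsAddHaarMeasure := Measure.prod.instIsAddHaarMeasure _ _
  have h2 := cov volume hs (fun x hx => (L.hasFDerivAt.comp x
    (nm_deriv hf hν (hBU hx.1.1)).1.hasFDerivAt).hasFDerivWithinAt) gw_meas
  refine (mul_le_mul_right ((lintegral_mono_set h1).trans h2) _).trans ?_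
  rw [← lintegral_indicator hs, ← lintegral_indicator hB, Measure.volume_eq_prod]
  refine (mul_le_mul_right (lintegral_prod_le _) _).trans ((lintegral_const_mul_le _ _).trans ?_)
  rw [← lintegral_const_mul' _ _ ENNReal.ofReal_ne_top]
  refine lintegral_mono fun u => ?_
  by_cases hu : u ∈ B
  swap
  · rw [lintegral_congr fun t => Set.indicator_of_notMem (fun h => hu h.1.1) _]
    simp
  obtain ⟨b, κ, w, k1, k2, w1, w2, w3, k3⟩ := exists_frame hf hν (hBU hu)
  obtain ⟨k4, k5⟩ := hκ u (hBU hu) b _ k1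
  simp only [meanCurv, sffSq, k2, if_true, ite_pow, ne_eq, two_ne_zero, not_false_eq_true, zero_pow,
    sum_ite_eq, mem_univ] at k4 k5
  have k6 : density f u * |(Matrix.of b).det| = 1 := dens_mul k1.orth
  have k7 : 0 ≤ density f u := Real.sqrt_nonneg _
  have h3 : ∀ t, s.indicator (fun x => ENNReal.ofReal |(L.comp (fderiv ℝ (nm f ν) x)).det| *
      gw ((L ∘ nm f ν) x)) (u, t) ≤ ENNReal.ofReal (density f u) * ENNReal.ofReal (wi κ t) := by
    intro t
    refine Set.indicator_apply_le' (fun ht => le_of_eq ?_) fun _ => zero_le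
    have h4 := (nm_deriv hf hν (x := (u, t)) (hBU hu)).2
    have h5 := det_key (fderiv ℝ (nm f ν) (u, t)).toLinearMap b w (fun i => t 0 - t 1 * κ i)
      (fun i => (h4 _ _).trans (by simp [k3, w1, mul_smul, sub_eq_add_neg, add_smul]))
      fun j => (h4 _ _).trans (by fin_cases j <;> simp [w2, w3, d1])
    have h6 : ∀ i, 0 ≤ t 0 - t 1 * κ i := fun i => by
      have h7 : ¬ 0 < inner ℝ (nm f ν (u, t)) (d2 f u (b i) (b i)) := fun h =>
        ht.2 (Set.mem_iUnion.2 ⟨b i, ⟨hBU hu, trivial⟩, h⟩)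
      rw [nm, inner_add_left, real_inner_smul_left, real_inner_smul_left, k2, if_pos rfl,
        hf.second (hBU hu), real_inner_self_eq_norm_sq, k1.orth.1 i] at h7
      linarith
    have h7 : ‖nm f ν (u, t)‖ ^ 2 = t 0 ^ 2 + t 1 ^ 2 := by
      rw [nm, norm_add_sq_real, real_inner_smul_left, real_inner_smul_right, real_inner_comm,
        k1.perp_pos, norm_smul, norm_smul, k1.unit, hf.unit u (hBU hu)]
      simp
    rw [abs_of_nonneg (prod_nonneg fun i _ => h6 i)] at h5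
    rw [gw, ← ENNReal.ofReal_mul (abs_nonneg _), ← ENNReal.ofReal_mul k7, wi, ← h7, ← norm_LX, pp,
      prod_congr rfl fun i _ => max_eq_left (h6 i), ← h5]
    refine congrArg _ ?_
    change |LinearMap.det ((LX m).toLinearMap ∘ₗ _)| * Real.exp (-(∑ i, (LX m _).1 i ^ 2 +
      ∑ i, (LX m _).2 i ^ 2)) = density f u * _
    linear_combination (-(|LinearMap.det ((LX m).toLinearMap ∘ₗ
      (fderiv ℝ (nm f ν) (u, t)).toLinearMap)| * Real.exp (-(∑ i, (LX m (nm f ν (u, t))).1 i ^ 2 +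
      ∑ i, (LX m (nm f ν (u, t))).2 i ^ 2)))) * k6
  refine (mul_le_mul_right (lintegral_mono h3) _).trans ?_
  rw [lintegral_const_mul' _ _ ENNReal.ofReal_ne_top, ← ofReal_integral_eq_lintegral_ofReal
    (wi_int κ) (ae_of_all _ (wi_nonneg κ)), Set.indicator_of_mem hu, mul_left_comm, mul_comm,
    mul_comm (ENNReal.ofReal (aMin m)), ← ENNReal.ofReal_mul (integral_nonneg (wi_nonneg κ))]
  exact mul_le_mul_left (ENNReal.ofReal_le_ofReal (W_le hm k4 k5)) _

end Vale.Agent.P224
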