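import Mathlib

/-! Pointwise inequalities for products of positive parts. -/

open Finset

noncomputable section

namespace Vale.Agent.P224

variable {m : ℕ}

/-- product of positive parts -/
def pp (κ : Fin m → ℝ) (α β : ℝ) : ℝ := ∏ i, max (α - β * κ i) 0

theorem pp_nonneg (κ : Fin m → ℝ) (α β : ℝ) : 0 ≤ pp κ α β :=
  prod_nonneg fun _ _ => le_max_right _ _

theorem pp_scale {κ : Fin m → ℝ} (hs : ∑ i, κ i = 0) {θ : ℝ} (h0 : 0 ≤ θ) (h1 : θ ≤ 1)
    (α β : ℝ) : pp κ α β ≤ pp (θ • κ) α β := by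
  by_cases hx : ∃ i, α - β * κ i ≤ 0
  · obtain ⟨i, hi⟩ := hx
    rw [pp, prod_eq_zero (mem_univ i) (max_eq_right hi)]
    exact pp_nonneg _ _ _
  push Not at hx
  rcases Nat.eq_zero_or_pos m with rfl | hm
  · simp [pp]
  have h2 : ∑ i, (α - β * κ i) = m * α := by
    simp [sum_sub_distrib, ← mul_sum, hs]
  have hm' : (0 : ℝ) < m := by exact_mod_cast hm
  have hα : 0 < α := by
    have : Nonempty (Fin m) := ⟨⟨0, hm⟩⟩
    have h3 := sum_pos (fun i _ => hx i) univ_nonempty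
    rw [h2] at h3
    exact (mul_pos_iff_of_pos_left hm').1 h3
  have e : ∀ i, α - β * (θ • κ) i = (1 - θ) * α + θ * (α - β * κ i) := fun i => by
    simp only [Pi.smul_apply, smul_eq_mul]
    ring
  have hy : ∀ i, 0 < α - β * (θ • κ) i := fun i => by
    rw [e]
    have := hx i
    rcases h0.eq_or_lt with rfl | h3
    · simpa using hα
    · have := mul_nonneg (sub_nonneg.2 h1) hα.le
      positivity
  have h3 : ∑ i, Real.log (α - β * κ i) ≤ m * Real.log α := by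
    have h4 : ∀ i, Real.log (α - β * κ i) ≤ Real.log α + ((α - β * κ i) / α - 1) := fun i => by
      have h5 := Real.log_le_sub_one_of_pos (div_pos (hx i) hα)
      rw [Real.log_div (hx i).ne' hα.ne'] at h5
      linarith
    refine (sum_le_sum fun i _ => h4 i).trans_eq ?_
    rw [sum_add_distrib, sum_sub_distrib, ← sum_div, h2]
    simp [hα.ne']
  have h4 : ∀ i, (1 - θ) * Real.log α + θ * Real.log (α - β * κ i) ≤
      Real.log (α - β * (θ • κ) i) := fun i => by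
    rw [e]
    exact strictConcaveOn_log_Ioi.concaveOn.2 hα (hx i) (sub_nonneg.2 h1) h0 (by ring)
  have h5 := sum_le_sum fun i (_ : i ∈ univ) => h4 i
  rw [sum_add_distrib, sum_const, ← mul_sum, card_univ, Fintype.card_fin, nsmul_eq_mul] at h5
  rw [pp, pp, prod_congr rfl fun i _ => max_eq_left (hx i).le,
    prod_congr rfl fun i _ => max_eq_left (hy i).le,
    ← Real.log_le_log_iff (prod_pos fun i _ => hx i) (prod_pos fun i _ => hy i),
    Real.log_prod fun i _ => (hx i).ne', Real.log_prod fun i _ => (hy i).ne']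
  nlinarith [mul_le_mul_of_nonneg_left h3 (sub_nonneg.2 h1)]

theorem triple_le {X t p q s r θ : ℝ} (h1 : p + q + s = 0) (h2 : p ^ 2 + q ^ 2 + s ^ 2 = 6 * r ^ 2)
    (h3 : p * q * s = θ * (2 * r ^ 3) + (1 - θ) * (-2 * r ^ 3)) (h0 : 0 ≤ θ) (h4 : θ ≤ 1) :
    max (X - t * p) 0 * max (X - t * q) 0 * max (X - t * s) 0 ≤
      θ * (max (X - t * (2 * r)) 0 * max (X - t * (-r)) 0 * max (X - t * (-r)) 0) +
      (1 - θ) * (max (X - t * (-2 * r)) 0 * max (X - t * r) 0 * max (X - t * r) 0) := by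
  have h5 := sub_nonneg.2 h4
  by_cases hx : X - t * p ≤ 0 ∨ X - t * q ≤ 0 ∨ X - t * s ≤ 0
  · have h6 : max (X - t * p) 0 * max (X - t * q) 0 * max (X - t * s) 0 = 0 := by
      rcases hx with h | h | h <;> simp [max_eq_right h]
    rw [h6]
    positivity
  push Not at hx
  obtain ⟨hp, hq, hs⟩ := hx
  have hX : 0 < X := by
    have : (X - t * p) + (X - t * q) + (X - t * s) = 3 * X := by linear_combination (-t) * h1
    linarith
  have h6 : (t * r) ^ 2 < X ^ 2 := by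
    have h7 := add_pos (add_pos (mul_pos hp hq) (mul_pos hq hs)) (mul_pos hp hs)
    have h8 : p * q + q * s + p * s = -3 * r ^ 2 := by
      linear_combination (p + q + s) / 2 * h1 - h2 / 2
    have h9 : (X - t * p) * (X - t * q) + (X - t * q) * (X - t * s) + (X - t * p) * (X - t * s) =
        3 * X ^ 2 - 3 * (t * r) ^ 2 := by
      linear_combination (-2 * X * t) * h1 + t ^ 2 * h8
    linarith
  obtain ⟨h7, h8⟩ := abs_lt.1 (abs_lt_of_sq_lt_sq h6 hX.le)
  rw [max_eq_left hp.le, max_eq_left hq.le, max_eq_left hs.le,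
    max_eq_left (show 0 ≤ X - t * (-r) by linarith), max_eq_left (show 0 ≤ X - t * r by linarith)]
  have h9 : (X - t * p) * (X - t * q) * (X - t * s) =
      θ * ((X - t * (2 * r)) * (X - t * (-r)) * (X - t * (-r))) +
      (1 - θ) * ((X - t * (-2 * r)) * (X - t * r) * (X - t * r)) := by
    linear_combination (-X ^ 2 * t + X * t ^ 2 * (p + q + s) / 2) * h1 - X * t ^ 2 / 2 * h2 -
      t ^ 3 * h3
  rw [h9]
  have h10 : 0 ≤ X - t * (-r) := by linarith
  have h11 : 0 ≤ X - t * r := by linarith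
  gcongr <;> exact le_max_left _ _

/-- change three values -/
def upd (κ : Fin m → ℝ) (i j k : Fin m) (x y z : ℝ) : Fin m → ℝ :=
  Function.update (Function.update (Function.update κ i x) j y) k z

theorem prod_upd {A : Type} [CommMonoid A] (F : ℝ → A) (κ : Fin m → ℝ) {i j k : Fin m}
    (hij : i ≠ j) (hik : i ≠ k) (hjk : j ≠ k) (x y z : ℝ) :
    ∏ l, F (upd κ i j k x y z l) =
      F x * F y * F z * ∏ l ∈ ((univ.erase i).erase j).erase k, F (κ l) := by
  rw [← mul_prod_erase univ _ (mem_univ i),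
    ← mul_prod_erase _ _ (mem_erase.2 ⟨hij.symm, mem_univ j⟩),
    ← mul_prod_erase _ _ (mem_erase.2 ⟨hjk.symm, mem_erase.2 ⟨hik.symm, mem_univ k⟩⟩),
    ← mul_assoc, ← mul_assoc]
  refine congrArg₂ (· * ·) (by simp [upd, hij, hik, hjk]) (prod_congr rfl fun l hl => ?_)
  simp only [mem_erase] at hl
  simp [upd, hl.1, hl.2.1, hl.2.2.1]

theorem sum_upd (F : ℝ → ℝ) (κ : Fin m → ℝ) {i j k : Fin m}
    (hij : i ≠ j) (hik : i ≠ k) (hjk : j ≠ k) (x y z : ℝ) :
    ∑ l, F (upd κ i j k x y z l) =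
      F x + F y + F z + ∑ l ∈ ((univ.erase i).erase j).erase k, F (κ l) :=
  prod_upd (fun x => Multiplicative.ofAdd (F x)) κ hij hik hjk x y z

theorem upd_self (κ : Fin m → ℝ) (i j k : Fin m) : upd κ i j k (κ i) (κ j) (κ k) = κ := by
  simp [upd]

/-- three distinct values can be moved to a double value -/
theorem exists_step (κ : Fin m → ℝ) {i j k : Fin m} (hij : κ i ≠ κ j) (hik : κ i ≠ κ k)
    (hjk : κ j ≠ κ k) : ∃ (κ1 κ2 : Fin m → ℝ) (θ : ℝ), 0 < θ ∧ θ ≤ 1 ∧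
      (∑ l, κ1 l = ∑ l, κ l ∧ ∑ l, κ1 l ^ 2 = ∑ l, κ l ^ 2) ∧
      (∑ l, κ2 l = ∑ l, κ l ∧ ∑ l, κ2 l ^ 2 = ∑ l, κ l ^ 2) ∧
      ∑ l, κ l ^ 3 < ∑ l, κ1 l ^ 3 ∧
      ∀ α β, pp κ α β ≤ θ * pp κ1 α β + (1 - θ) * pp κ2 α β := by
  have h1 : i ≠ j := fun h => hij (h ▸ rfl)
  have h2 : i ≠ k := fun h => hik (h ▸ rfl)
  have h3 : j ≠ k := fun h => hjk (h ▸ rfl)
  obtain ⟨μ, p, q, s, hp, hq, hs, h4⟩ : ∃ μ p q s, κ i = μ + p ∧ κ j = μ + q ∧ κ k = μ + s ∧
      p + q + s = 0 := ⟨(κ i + κ j + κ k) / 3, _, _, _, (add_sub_cancel _ _).symm,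
        (add_sub_cancel _ _).symm, (add_sub_cancel _ _).symm, by ring⟩
  have h5 : 0 < ((p - q) * (q - s) * (p - s)) ^ 2 := by
    rw [hp, hq] at hij
    rw [hp, hs] at hik
    rw [hq, hs] at hjk
    refine sq_pos_of_ne_zero (mul_ne_zero (mul_ne_zero ?_ ?_) ?_) <;> rw [sub_ne_zero]
    · exact fun h => hij (by rw [h])
    · exact fun h => hjk (by rw [h])
    · exact fun h => hik (by rw [h])
  obtain ⟨r, hr0, hr⟩ : ∃ r, 0 ≤ r ∧ p ^ 2 + q ^ 2 + s ^ 2 = 6 * r ^ 2 :=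
    ⟨√((p ^ 2 + q ^ 2 + s ^ 2) / 6), Real.sqrt_nonneg _, by
      rw [Real.sq_sqrt (by positivity)]
      ring⟩
  have h6 : (p * q * s) ^ 2 < (2 * r ^ 3) ^ 2 := by
    have h7 : s = -p - q := by linarith
    have h8 : (2 * r ^ 3) ^ 2 = 4 * ((p ^ 2 + q ^ 2 + s ^ 2) / 6) ^ 3 := by
      rw [hr]
      ring
    rw [h8]
    subst h7
    nlinarith
  obtain ⟨h7, h8⟩ := abs_lt.1 (abs_lt_of_sq_lt_sq h6 (by positivity))
  have h9 : 0 < 4 * r ^ 3 := by linarith
  have hr1 : r ≠ 0 := fun h => by simp [h] at h9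
  have e : ∀ F : ℝ → ℝ, ∑ l, F (κ l) = F (μ + p) + F (μ + q) + F (μ + s) +
      ∑ l ∈ ((univ.erase i).erase j).erase k, F (κ l) := fun F => by
    rw [← hp, ← hq, ← hs, ← sum_upd F κ h1 h2 h3, upd_self]
  refine ⟨upd κ i j k (μ + 2 * r) (μ + -r) (μ + -r), upd κ i j k (μ + -2 * r) (μ + r) (μ + r),
    (p * q * s + 2 * r ^ 3) / (4 * r ^ 3), div_pos (by linarith) h9,
    (div_le_one h9).2 (by linarith), ⟨?_, ?_⟩, ⟨?_, ?_⟩, ?_, fun α β => ?_⟩
  · rw [sum_upd (fun x => x) κ h1 h2 h3, e fun x => x]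
    linarith
  · rw [sum_upd (fun x => x ^ 2) κ h1 h2 h3, e fun x => x ^ 2]
    linear_combination -hr - 2 * μ * h4
  · rw [sum_upd (fun x => x) κ h1 h2 h3, e fun x => x]
    linarith
  · rw [sum_upd (fun x => x ^ 2) κ h1 h2 h3, e fun x => x ^ 2]
    linear_combination -hr - 2 * μ * h4
  · rw [sum_upd (fun x => x ^ 3) κ h1 h2 h3, e fun x => x ^ 3]
    have h10 : (μ + p) ^ 3 + (μ + q) ^ 3 + (μ + s) ^ 3 =
        3 * μ ^ 3 + 18 * μ * r ^ 2 + 3 * (p * q * s) := by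
      linear_combination (3 * μ ^ 2 + p ^ 2 + q ^ 2 + s ^ 2 - p * q - q * s - p * s) * h4 +
        3 * μ * hr
    nlinarith
  · have h10 := triple_le (X := α - β * μ) (t := β) h4 hr
      (θ := (p * q * s + 2 * r ^ 3) / (4 * r ^ 3)) (by field_simp; ring)
      (div_pos (by linarith) h9).le ((div_le_one h9).2 (by linarith))
    have h11 := prod_upd (fun x => max (α - β * x) 0) κ h1 h2 h3
    have h12 := h11 (κ i) (κ j) (κ k)
    rw [upd_self, hp, hq, hs] at h12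
    have h13 : 0 ≤ ∏ l ∈ ((univ.erase i).erase j).erase k, max (α - β * κ l) 0 :=
      prod_nonneg fun _ _ => le_max_right _ _
    rw [pp, pp, pp, h12, h11, h11]
    simp only [mul_add β, ← sub_sub]
    nlinarith [mul_le_mul_of_nonneg_right h10 h13]

end Vale.Agent.P224
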